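import Mathlib

/-! Areas of planar figures in Euclidean space. -/

set_option autoImplicit false

open MeasureTheory Set Filter
open scoped ENNReal Topology

namespace Crest.Agent.R211

/-- The Euclidean plane. -/
abbrev E2 : Type := EuclideanSpace ℝ (Fin 2)
/-- Euclidean three-space. -/
abbrev E3 : Type := EuclideanSpace ℝ (Fin 3)

section General

variable {V : Type*} [NormedAddCommGroup V] [InnerProductSpace ℝ V]

/-- Affine parametrisation of a plane. -/
def aff (p a b : V) (x : ℝ × ℝ) : V := p + x.1 • a + x.2 • b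

/-- Area of the parallelogram spanned by two vectors. -/
noncomputable def gram (a b : V) : ℝ := √(‖a‖ ^ 2 * ‖b‖ ^ 2 - inner ℝ a b ^ 2)

theorem gram_nonneg (a b : V) : 0 ≤ gram a b := Real.sqrt_nonneg _

theorem continuous_aff (p a b : V) : Continuous (aff p a b) := by
  unfold aff; fun_prop

/-- The linear part of `aff`. -/
noncomputable def lin2 (a b : V) : E2 →ₗ[ℝ] V where
  toFun x := x 0 • a + x 1 • b
  map_add' x y := by simp [add_smul]; abel
  map_smul' c x := by simp [mul_smul]

theorem normDet_lin2 (a b : V) : (lin2 a b).normDet = gram a b := by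
  have h := (lin2 a b).normDet_sq_eq_det_gram (EuclideanSpace.basisFun (Fin 2) ℝ)
  have h2 : (lin2 a b).normDet ^ 2 = ‖a‖ ^ 2 * ‖b‖ ^ 2 - inner ℝ a b ^ 2 := by
    simp only [RCLike.ofReal_real_eq_id, id] at h
    rw [h, Matrix.det_fin_two]
    simp [Matrix.gram, lin2, real_inner_comm]
    ring
  rw [gram, ← h2, Real.sqrt_sq (lin2 a b).normDet_nonneg]

/-- Coordinates of the plane. -/
noncomputable def coords : E2 ≃ᵐ ℝ × ℝ :=
  (MeasurableEquiv.toLp 2 (Fin 2 → ℝ)).symm.trans MeasurableEquiv.finTwoArrow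

theorem coords_mp : MeasurePreserving coords volume volume :=
  (volume_preserving_finTwoArrow ℝ).comp
    (EuclideanSpace.volume_preserving_symm_measurableEquiv_toLp (Fin 2))

theorem coords_apply (x : E2) : coords x = (x 0, x 1) := rfl

theorem measure_aff [MeasurableSpace V] [BorelSpace V] (p a b : V) (S : Set (ℝ × ℝ)) :
    μHE[2] (aff p a b '' S) = ENNReal.ofReal (gram a b) * volume S := by
  have h1 : aff p a b '' S = (fun y => p + y) '' (lin2 a b '' (coords ⁻¹' S)) := by
    ext y
    simp only [mem_image, mem_preimage, exists_exists_and_eq_and]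
    constructor
    · rintro ⟨x, hx, rfl⟩
      exact ⟨coords.symm x, by simpa using hx, by
        have : coords (coords.symm x) = x := coords.apply_symm_apply x
        rw [coords_apply] at this
        have h0 := congrArg Prod.fst this
        have h1 := congrArg Prod.snd this
        simp only at h0 h1
        simp [aff, lin2, add_assoc, h0, h1]⟩
    · rintro ⟨x, hx, rfl⟩
      exact ⟨coords x, hx, by simp [aff, lin2, coords_apply, add_assoc]⟩
  rw [h1, (isometry_add_left p).euclideanHausdorffMeasure_image]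
  have h2 := (lin2 a b).euclideanHausdorffMeasure_image_eq_normDet_mul_volume (coords ⁻¹' S)
  rw [finrank_euclideanSpace_fin] at h2
  rw [h2, normDet_lin2, coords_mp.measure_preimage_equiv]

/-- The standard triangle. -/
def simplex : Set (ℝ × ℝ) := {x | 0 ≤ x.1 ∧ 0 ≤ x.2 ∧ x.1 + x.2 ≤ 1}

theorem volume_simplex : volume simplex = ENNReal.ofReal (1 / 2) := by
  have hm : MeasurableSet simplex := by
    unfold simplex
    measurability
  rw [Measure.volume_eq_prod, Measure.prod_apply hm]
  have h1 : (fun x : ℝ => volume (Prod.mk x ⁻¹' simplex)) =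
      (Icc (0 : ℝ) 1).indicator (fun x => ENNReal.ofReal (1 - x)) := by
    ext x
    by_cases hx : x ∈ Icc (0 : ℝ) 1
    · rw [indicator_of_mem hx]
      have : Prod.mk x ⁻¹' simplex = Icc 0 (1 - x) := by
        ext y; simp only [simplex, mem_preimage, mem_ofPred_eq, mem_Icc]
        constructor
        · rintro ⟨_, h2, h3⟩; exact ⟨h2, by linarith⟩
        · rintro ⟨h2, h3⟩; exact ⟨hx.1, h2, by linarith⟩
      rw [this, Real.volume_Icc, sub_zero]
    · rw [indicator_of_notMem hx]
      have : Prod.mk x ⁻¹' simplex = ∅ := by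
        ext y; simp only [simplex, mem_preimage, mem_ofPred_eq, mem_empty_iff_false, iff_false]
        rintro ⟨h1, h2, h3⟩; exact hx ⟨h1, by linarith⟩
      rw [this, measure_empty]
  rw [h1, lintegral_indicator measurableSet_Icc,
    ← ofReal_integral_eq_lintegral_ofReal
      ((by fun_prop : Continuous fun x : ℝ => 1 - x).continuousOn.integrableOn_Icc)
      ((ae_restrict_iff' measurableSet_Icc).2 (.of_forall fun x hx => by
        simpa using hx.2)),
    integral_Icc_eq_integral_Ioc, ← intervalIntegral.integral_of_le zero_le_one]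
  congr 1
  rw [intervalIntegral.integral_sub (by simp) (by simp)]
  simp
  norm_num

theorem convex_simplex : Convex ℝ simplex := by
  intro x hx y hy s t hs ht hst
  obtain ⟨h1, h2, h3⟩ := hx
  obtain ⟨k1, k2, k3⟩ := hy
  refine ⟨?_, ?_, ?_⟩ <;> simp only [Prod.fst_add, Prod.snd_add, Prod.smul_fst, Prod.smul_snd,
    smul_eq_mul]
  · positivity
  · positivity
  · nlinarith

theorem hull_eq (p q r : V) : convexHull ℝ {p, q, r} = aff p (q - p) (r - p) '' simplex := by
  apply Subset.antisymm
  · refine convexHull_min ?_ ?_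
    · rintro x (rfl | rfl | rfl)
      · exact ⟨(0, 0), by simp [simplex], by simp [aff]⟩
      · exact ⟨(1, 0), by simp [simplex], by simp [aff]⟩
      · exact ⟨(0, 1), by simp [simplex], by simp [aff]⟩
    · rintro _ ⟨x, hx, rfl⟩ _ ⟨y, hy, rfl⟩ s t hs ht hst
      refine ⟨s • x + t • y, convex_simplex hx hy hs ht hst, ?_⟩
      have : t = 1 - s := by linarith
      subst this
      simp only [aff, Prod.fst_add, Prod.snd_add, Prod.smul_fst, Prod.smul_snd, smul_eq_mul]
      module
  · rintro _ ⟨x, ⟨h1, h2, h3⟩, rfl⟩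
    have hc := convex_convexHull ℝ ({p, q, r} : Set V)
    have hp : p ∈ convexHull ℝ ({p, q, r} : Set V) := subset_convexHull _ _ (by simp)
    have hq : q ∈ convexHull ℝ ({p, q, r} : Set V) := subset_convexHull _ _ (by simp)
    have hr : r ∈ convexHull ℝ ({p, q, r} : Set V) := subset_convexHull _ _ (by simp)
    have := hc.sum_mem (t := Finset.univ) (w := ![1 - x.1 - x.2, x.1, x.2]) (z := ![p, q, r])
      (fun i _ => by fin_cases i <;> simp <;> linarith)
      (by simp [Fin.sum_univ_three]; ring) (fun i _ => by fin_cases i <;> simpa)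
    convert this using 1
    simp only [aff, Fin.sum_univ_three]
    simp
    module

theorem measure_triangle [MeasurableSpace V] [BorelSpace V] (p q r : V) :
    μHE[2] (convexHull ℝ ({p, q, r} : Set V)) = ENNReal.ofReal (gram (q - p) (r - p) / 2) := by
  rw [hull_eq, measure_aff, volume_simplex, ← ENNReal.ofReal_mul (gram_nonneg _ _)]
  congr 1; ring

theorem measure_triangle_toReal [MeasurableSpace V] [BorelSpace V] (p q r : V) :
    (μHE[2] (convexHull ℝ ({p, q, r} : Set V))).toReal = gram (q - p) (r - p) / 2 := by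
  rw [measure_triangle, ENNReal.toReal_ofReal (by have := gram_nonneg (q - p) (r - p); positivity)]

theorem par_eq (c a b : V) :
    {x : V | ∃ s ∈ Icc (0 : ℝ) 1, ∃ t ∈ Icc (0 : ℝ) 1, x = c + s • a + t • b} =
      aff c a b '' (Icc 0 1 ×ˢ Icc 0 1) := by
  ext x
  constructor
  · rintro ⟨s, hs, t, ht, rfl⟩; exact ⟨(s, t), ⟨hs, ht⟩, rfl⟩
  · rintro ⟨y, ⟨hs, ht⟩, rfl⟩; exact ⟨y.1, hs, y.2, ht, rfl⟩

theorem measure_par_toReal [MeasurableSpace V] [BorelSpace V] (c a b : V) :
    (μHE[2] {x : V | ∃ s ∈ Icc (0 : ℝ) 1, ∃ t ∈ Icc (0 : ℝ) 1, x = c + s • a + t • b}).toReal =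
      gram a b := by
  rw [par_eq, measure_aff, Measure.volume_eq_prod, Measure.prod_prod]
  simp [gram_nonneg]

theorem isCompact_par (c a b : V) :
    IsCompact {x : V | ∃ s ∈ Icc (0 : ℝ) 1, ∃ t ∈ Icc (0 : ℝ) 1, x = c + s • a + t • b} := by
  rw [par_eq]
  exact (isCompact_Icc.prod isCompact_Icc).image (continuous_aff c a b)

theorem gram_smul (a b : V) (s t : ℝ) : gram (s • a) (t • b) = |s| * |t| * gram a b := by
  unfold gram
  rw [norm_smul, norm_smul, inner_smul_left, inner_smul_right]
  simp only [Real.norm_eq_abs, conj_trivial]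
  rw [← abs_mul, ← Real.sqrt_sq_eq_abs (s * t), ← Real.sqrt_mul (sq_nonneg _)]
  congr 1
  rw [mul_pow, mul_pow, sq_abs, sq_abs]; ring

theorem affineIndependent_of_gram (p q r : V) (h : gram (q - p) (r - p) ≠ 0) :
    AffineIndependent ℝ ![p, q, r] := by
  rw [affineIndependent_iff_not_collinear_set]
  intro hc
  obtain ⟨v, hv⟩ := (collinear_iff_of_mem (p₀ := p) (by simp)).1 hc
  obtain ⟨s, hs⟩ := hv q (by simp)
  obtain ⟨t, ht⟩ := hv r (by simp)
  apply h
  have e1 : q - p = s • v := by rw [hs]; simp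
  have e2 : r - p = t • v := by rw [ht]; simp
  rw [e1, e2, gram_smul]
  simp [gram, sq]

end General

/-- The determinant of three vectors. -/
def det3 (a b c : E3) : ℝ :=
  a 0 * (b 1 * c 2 - b 2 * c 1) - a 1 * (b 0 * c 2 - b 2 * c 0) + a 2 * (b 0 * c 1 - b 1 * c 0)

theorem inner3 (a b : E3) : inner ℝ a b = a 0 * b 0 + a 1 * b 1 + a 2 * b 2 := by
  simp [PiLp.inner_apply, Fin.sum_univ_three]; ring

theorem normsq3 (a : E3) : ‖a‖ ^ 2 = a 0 ^ 2 + a 1 ^ 2 + a 2 ^ 2 := by
  rw [← real_inner_self_eq_norm_sq, inner3]; ring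

theorem det3_sq (a b c : E3) : det3 a b c ^ 2 =
    ‖a‖ ^ 2 * ‖b‖ ^ 2 * ‖c‖ ^ 2 + 2 * inner ℝ a b * inner ℝ b c * inner ℝ a c
      - ‖a‖ ^ 2 * inner ℝ b c ^ 2 - ‖b‖ ^ 2 * inner ℝ a c ^ 2 - ‖c‖ ^ 2 * inner ℝ a b ^ 2 := by
  simp only [normsq3, inner3, det3]; ring

theorem gram_of_orth (a b W : E3) (hW : W ≠ 0) (ha : inner ℝ a W = 0) (hb : inner ℝ b W = 0) :
    gram a b = |det3 a b W| / ‖W‖ := by
  have hW' : 0 < ‖W‖ := norm_pos_iff.2 hW
  have h := det3_sq a b W
  rw [ha, hb] at h
  rw [gram, eq_div_iff hW'.ne', ← Real.sqrt_sq_eq_abs, h, ← Real.sqrt_sq hW'.le,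
    ← Real.sqrt_mul' _ (sq_nonneg _), Real.sqrt_sq hW'.le]
  congr 1; ring

/-- Orthogonal projection along a vector. -/
noncomputable def prj (W y : E3) : E3 := y - (inner ℝ y W / ‖W‖ ^ 2) • W

theorem inner_prj (W y : E3) (hW : W ≠ 0) : inner ℝ (prj W y) W = 0 := by
  have hW' : 0 < ‖W‖ := norm_pos_iff.2 hW
  rw [prj, inner_sub_left, inner_smul_left, real_inner_self_eq_norm_sq]
  simp only [conj_trivial]
  field_simp
  ring

/-- The projection as a linear map. -/
noncomputable def prjL (W : E3) : E3 →ₗ[ℝ] E3 where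
  toFun := prj W
  map_add' x y := by simp only [prj, inner_add_left, add_div, add_smul]; abel
  map_smul' c x := by
    simp only [prj, inner_smul_left, conj_trivial, RingHom.id_apply, smul_sub, smul_smul,
      mul_div_assoc]

theorem prjL_apply (W y : E3) : prjL W y = prj W y := rfl

theorem prj_self (W : E3) (hW : W ≠ 0) : prj W W = 0 := by
  have hW' : 0 < ‖W‖ := norm_pos_iff.2 hW
  rw [prj, real_inner_self_eq_norm_sq, div_self (by positivity), one_smul, sub_self]

theorem prj_unit (v : E3) (hv : ‖v‖ = 1) : (fun y => y - inner ℝ y v • v) = prj v := by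
  ext1 y; simp [prj, hv]

theorem continuous_prj (W : E3) : Continuous (prj W) := by
  unfold prj; fun_prop

theorem gram_prj (a b W : E3) (hW : W ≠ 0) :
    gram (prj W a) (prj W b) = |det3 a b W| / ‖W‖ := by
  rw [gram_of_orth _ _ W hW (inner_prj W a hW) (inner_prj W b hW)]
  congr 2
  simp only [det3, prj, PiLp.sub_apply, PiLp.smul_apply, smul_eq_mul]
  ring

theorem prj_aff (W p a b : E3) (x : ℝ × ℝ) :
    prj W (aff p a b x) = aff (prj W p) (prj W a) (prj W b) x := by
  simp only [← prjL_apply, aff, map_add, map_smul]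

theorem measure_lt_top_of_plane (u : E3) (hu : u ≠ 0) (S : Set E3) (hS : Bornology.IsBounded S)
    (h : ∀ x ∈ S, inner ℝ x u = 0) : μHE[2] S < ∞ := by
  have : Fact (Module.finrank ℝ E3 = 2 + 1) := ⟨by simp⟩
  have hr : Module.finrank ℝ (ℝ ∙ u)ᗮ = 2 := Submodule.finrank_orthogonal_span_singleton hu
  have h1 : S = Subtype.val '' ((Subtype.val : (ℝ ∙ u)ᗮ → E3) ⁻¹' S) := by
    rw [image_preimage_eq_inter_range, Subtype.range_coe, eq_comm, inter_eq_left]
    intro x hx
    exact (Submodule.mem_orthogonal_singleton_iff_inner_left).2 (h x hx)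
  rw [h1, isometry_subtype_coe.euclideanHausdorffMeasure_image, ← hr,
    InnerProductSpace.euclideanHausdorffMeasure_eq_volume]
  exact (isometry_subtype_coe.antilipschitz.isBounded_preimage hS).measure_lt_top

theorem measure_prj_lt_top (W : E3) (hW : W ≠ 0) (S : Set E3) (hS : IsCompact S) :
    μHE[2] (prj W '' S) < ∞ :=
  measure_lt_top_of_plane W hW _ (hS.image (continuous_prj W)).isBounded
    (by rintro _ ⟨y, -, rfl⟩; exact inner_prj W y hW)

/-- A compact planar base can be enlarged to a bounded relatively open one. -/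
theorem openify (u : E3) (hu : u ≠ 0) (P : Set E3) (hP : IsCompact P)
    (h : ∀ x ∈ P, inner ℝ x u = 0) (η : ℝ) (hη : 0 < η) :
    ∃ B : Set E3, P ⊆ B ∧ (Bornology.IsBounded B ∧ ∃ O : Set E3, IsOpen O ∧
      B = O ∩ {x | inner ℝ x u = 0}) ∧ (μHE[2] B).toReal ≤ (μHE[2] P).toReal + η := by
  set H : Set E3 := {x | inner ℝ x u = 0} with hH
  have hHm : MeasurableSet H := (isClosed_eq (by fun_prop) continuous_const).measurableSet
  have hfin : ∀ r, μHE[2] (Metric.thickening r P ∩ H) < ∞ := fun r =>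
    measure_lt_top_of_plane u hu _ (hP.isBounded.thickening.subset inter_subset_left)
      (fun x hx => hx.2)
  have hlim := tendsto_measure_thickening_of_isClosed (μ := (μHE[2] : Measure E3).restrict H)
    (s := P) ⟨1, one_pos, by rw [Measure.restrict_apply' hHm]; exact (hfin 1).ne⟩ hP.isClosed
  simp only [Measure.restrict_apply' hHm] at hlim
  rw [inter_eq_left.2 (show P ⊆ H from h)] at hlim
  have hPfin := measure_lt_top_of_plane u hu P hP.isBounded h
  have hlim2 := (ENNReal.tendsto_toReal hPfin.ne).comp hlim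
  have := (hlim2.eventually (gt_mem_nhds (lt_add_of_pos_right _ hη))).and self_mem_nhdsWithin
  obtain ⟨r, hr1, hr2⟩ := this.exists
  refine ⟨Metric.thickening r P ∩ H, subset_inter (Metric.self_subset_thickening hr2 P) h,
    ⟨hP.isBounded.thickening.subset inter_subset_left, _, Metric.isOpen_thickening, rfl⟩, hr1.le⟩

end Crest.Agent.R211
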