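import Mathlib
import Crest.Agent.R211.Area

/-! Square grids in the plane and sheared lattices. -/

set_option autoImplicit false

open MeasureTheory Set Filter
open scoped ENNReal Topology

namespace Crest.Agent.R211

theorem lattice_pos (α β X Y : ℝ) (hα : 0 ≤ α) (hβ : 0 ≤ β) (h : α * β < 1) :
    ∃ m n : ℤ, X - m - β * n ∈ Icc (0 : ℝ) 1 ∧ Y - α * m - n ∈ Icc (0 : ℝ) 1 := by
  have h1 : 0 < 1 - α * β := by linarith
  obtain ⟨m, hm, hmax⟩ := Int.exists_greatest_of_bdd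
    (P := fun m : ℤ => 0 ≤ X - m - β * (⌊Y - α * m⌋ : ℤ))
    ⟨⌈(X - β * Y + β) / (1 - α * β)⌉, fun m hm => by
      have h2 := Int.lt_floor_add_one (Y - α * m)
      have h3 : (m : ℝ) ≤ (X - β * Y + β) / (1 - α * β) := by
        rw [le_div_iff₀ h1]; nlinarith
      exact_mod_cast h3.trans (Int.le_ceil _)⟩
    ⟨⌊(X - β * Y) / (1 - α * β)⌋, by
      have h2 := Int.floor_le (Y - α * (⌊(X - β * Y) / (1 - α * β)⌋ : ℤ))
      have h3 := Int.floor_le ((X - β * Y) / (1 - α * β))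
      rw [le_div_iff₀ h1] at h3
      nlinarith⟩
  refine ⟨m, ⌊Y - α * m⌋, ⟨hm, ?_⟩, ⟨by linarith [Int.floor_le (Y - α * m)],
    by linarith [Int.lt_floor_add_one (Y - α * m)]⟩⟩
  have h2 : ¬ (0 ≤ X - ((m + 1 : ℤ) : ℝ) - β * (⌊Y - α * ((m + 1 : ℤ) : ℝ)⌋ : ℤ)) := fun h3 => by
    have := hmax _ h3; omega
  have h3 : ⌊Y - α * ((m + 1 : ℤ) : ℝ)⌋ ≤ ⌊Y - α * m⌋ :=
    Int.floor_mono (by push_cast; nlinarith)
  have h4 : ((⌊Y - α * ((m + 1 : ℤ) : ℝ)⌋ : ℤ) : ℝ) ≤ (⌊Y - α * m⌋ : ℤ) := by exact_mod_cast h3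
  rw [not_le] at h2
  have h5 := mul_le_mul_of_nonneg_left h4 hβ
  push_cast at h2 h5 ⊢
  linarith

theorem lattice (α β X Y : ℝ) (h0 : 0 ≤ α * β) (h : α * β < 1) :
    ∃ m n : ℤ, X - m - β * n ∈ Icc (0 : ℝ) 1 ∧ Y - α * m - n ∈ Icc (0 : ℝ) 1 := by
  rcases mul_nonneg_iff.1 h0 with ⟨hα, hβ⟩ | ⟨hα, hβ⟩
  · exact lattice_pos α β X Y hα hβ h
  · obtain ⟨m, n, h1, h2⟩ := lattice_pos (-α) (-β) X (1 - Y) (by linarith) (by linarith)
      (by linarith)
    refine ⟨m, -n, ?_, ?_⟩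
    · convert h1 using 1; push_cast; ring
    · push_cast; constructor <;> linarith [h2.1, h2.2]

theorem exists_zero_diag (α σ : ℝ) :
    ∃ u v : ℝ, u ^ 2 + v ^ 2 = 1 ∧ α * (u ^ 2 - v ^ 2) + σ * (u * v) = 0 := by
  have hc : ContinuousOn (fun θ : ℝ => α * (Real.cos θ ^ 2 - Real.sin θ ^ 2) +
      σ * (Real.cos θ * Real.sin θ)) (uIcc 0 (Real.pi / 2)) := by fun_prop
  obtain ⟨θ, -, hθ⟩ := intermediate_value_uIcc hc (a := 0) (b := Real.pi / 2)
    (show (0 : ℝ) ∈ _ by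
      simp only [Real.cos_zero, Real.sin_zero, Real.cos_pi_div_two, Real.sin_pi_div_two]
      rcases le_total 0 α with h | h
      · exact mem_uIcc.2 (Or.inr ⟨by linarith, by linarith⟩)
      · exact mem_uIcc.2 (Or.inl ⟨by linarith, by linarith⟩))
  exact ⟨Real.cos θ, Real.sin θ, Real.cos_sq_add_sin_sq θ, hθ⟩

/-- Index of the grid cell containing a point. -/
noncomputable def idx (q : E2) (u v r : ℝ) (x : E2) : ℤ × ℤ :=
  (⌊(u * (x 0 - q 0) + v * (x 1 - q 1)) / r⌋, ⌊(-v * (x 0 - q 0) + u * (x 1 - q 1)) / r⌋)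

/-- A cell of the grid. -/
def cell (q : E2) (u v r : ℝ) (m : ℤ × ℤ) : Set E2 := idx q u v r ⁻¹' {m}

theorem measurable_idx (q : E2) (u v r : ℝ) : Measurable (idx q u v r) := by
  refine Measurable.prodMk (Measurable.floor ?_) (Measurable.floor ?_) <;>
  exact Continuous.measurable (by fun_prop)

theorem measurableSet_cell (q : E2) (u v r : ℝ) (m : ℤ × ℤ) : MeasurableSet (cell q u v r m) :=
  measurable_idx q u v r (measurableSet_singleton m)

theorem mem_cell {q : E2} {u v r : ℝ} (hr : 0 < r) {m : ℤ × ℤ} {x : E2} :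
    x ∈ cell q u v r m ↔
      (m.1 * r ≤ u * (x 0 - q 0) + v * (x 1 - q 1) ∧
        u * (x 0 - q 0) + v * (x 1 - q 1) < (m.1 + 1) * r) ∧
      (m.2 * r ≤ -v * (x 0 - q 0) + u * (x 1 - q 1) ∧
        -v * (x 0 - q 0) + u * (x 1 - q 1) < (m.2 + 1) * r) := by
  simp only [cell, idx, mem_preimage, mem_singleton_iff, Prod.ext_iff, Int.floor_eq_iff,
    le_div_iff₀ hr, div_lt_iff₀ hr]

theorem inner2 (a b : E2) : inner ℝ a b = a 0 * b 0 + a 1 * b 1 := by
  simp [PiLp.inner_apply, Fin.sum_univ_two]; ring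

theorem normsq2 (a : E2) : ‖a‖ ^ 2 = a 0 ^ 2 + a 1 ^ 2 := by
  rw [← real_inner_self_eq_norm_sq, inner2]; ring

theorem norm_le2 (a : E2) : ‖a‖ ≤ |a 0| + |a 1| := by
  rw [← abs_norm, ← abs_of_nonneg (add_nonneg (abs_nonneg (a 0)) (abs_nonneg (a 1))), ← sq_le_sq,
    normsq2, add_sq, sq_abs, sq_abs]
  nlinarith [mul_nonneg (abs_nonneg (a 0)) (abs_nonneg (a 1))]

theorem abs_le_norm2 (a : E2) (i : Fin 2) : |a i| ≤ ‖a‖ := PiLp.norm_apply_le a i

theorem volume_cell (q : E2) {u v r : ℝ} (huv : u ^ 2 + v ^ 2 = 1) (hr : 0 < r) (m : ℤ × ℤ) :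
    volume (cell q u v r m) = ENNReal.ofReal (r ^ 2) := by
  have h : cell q u v r m = aff q !₂[r * u, r * v] !₂[-(r * v), r * u] ''
      (Ico (m.1 : ℝ) (m.1 + 1) ×ˢ Ico (m.2 : ℝ) (m.2 + 1)) := by
    ext x
    rw [mem_cell hr]
    constructor
    · rintro ⟨⟨h1, h2⟩, h3, h4⟩
      refine ⟨((u * (x 0 - q 0) + v * (x 1 - q 1)) / r, (-v * (x 0 - q 0) + u * (x 1 - q 1)) / r),
        ⟨⟨(le_div_iff₀ hr).2 h1, (div_lt_iff₀ hr).2 h2⟩, (le_div_iff₀ hr).2 h3,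
          (div_lt_iff₀ hr).2 h4⟩, ?_⟩
      ext i
      fin_cases i <;> simp [aff] <;> field_simp
      · linear_combination (x 0 - q 0) * huv
      · linear_combination (x 1 - q 1) * huv
    · rintro ⟨y, ⟨⟨h1, h2⟩, h3, h4⟩, rfl⟩
      have e1 : u * ((aff q !₂[r * u, r * v] !₂[-(r * v), r * u] y) 0 - q 0) +
          v * ((aff q !₂[r * u, r * v] !₂[-(r * v), r * u] y) 1 - q 1) = y.1 * r := by
        simp [aff]; linear_combination (y.1 * r) * huv
      have e2 : -v * ((aff q !₂[r * u, r * v] !₂[-(r * v), r * u] y) 0 - q 0) +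
          u * ((aff q !₂[r * u, r * v] !₂[-(r * v), r * u] y) 1 - q 1) = y.2 * r := by
        simp [aff]; linear_combination (y.2 * r) * huv
      rw [e1, e2]
      exact ⟨⟨by gcongr, by gcongr⟩, by gcongr, by gcongr⟩
  rw [h, ← EuclideanSpace.euclideanHausdorffMeasure_eq_volume, measure_aff, Measure.volume_eq_prod,
    Measure.prod_prod]
  have hg : gram (!₂[r * u, r * v] : E2) !₂[-(r * v), r * u] = r ^ 2 := by
    rw [gram, normsq2, normsq2, inner2, ← Real.sqrt_sq (sq_nonneg r)]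
    congr 1
    simp
    linear_combination (r ^ 4 * (u ^ 2 + v ^ 2 + 1)) * huv
  simp [hg]

theorem finite_idx (q : E2) {u v r : ℝ} (hr : 0 < r) (B : Set E2) (hB : Bornology.IsBounded B) :
    (idx q u v r '' B).Finite := by
  obtain ⟨R, hR⟩ := hB.subset_closedBall q
  set K := (|u| + |v|) * R
  refine (Set.finite_Icc ((⌊-K / r⌋, ⌊-K / r⌋) : ℤ × ℤ) (⌊K / r⌋, ⌊K / r⌋)).subset ?_
  rintro _ ⟨x, hx, rfl⟩
  have h := hR hx
  rw [Metric.mem_closedBall, dist_eq_norm] at h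
  have h0 : |x 0 - q 0| ≤ R := (abs_le_norm2 (x - q) 0).trans h
  have h1 : |x 1 - q 1| ≤ R := (abs_le_norm2 (x - q) 1).trans h
  have k1 : |u * (x 0 - q 0) + v * (x 1 - q 1)| ≤ K := by
    refine (abs_add_le _ _).trans ?_
    rw [abs_mul, abs_mul]
    nlinarith [abs_nonneg u, abs_nonneg v]
  have k2 : |-v * (x 0 - q 0) + u * (x 1 - q 1)| ≤ K := by
    refine (abs_add_le _ _).trans ?_
    rw [abs_mul, abs_mul, abs_neg]
    nlinarith [abs_nonneg u, abs_nonneg v]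
  obtain ⟨k3, k4⟩ := abs_le.1 k1
  obtain ⟨k5, k6⟩ := abs_le.1 k2
  refine ⟨⟨Int.floor_mono ?_, Int.floor_mono ?_⟩, Int.floor_mono ?_, Int.floor_mono ?_⟩ <;>
  gcongr

theorem cells_disjoint (q : E2) (u v r : ℝ) (S : Set (ℤ × ℤ)) :
    S.PairwiseDisjoint (cell q u v r) := by
  intro m _ n _ hmn
  exact Disjoint.preimage _ (disjoint_singleton.2 hmn)

theorem count_cells (q : E2) {u v r : ℝ} (huv : u ^ 2 + v ^ 2 = 1) (hr : 0 < r)
    (S : Finset (ℤ × ℤ)) (B : Set E2) (hB : volume B ≠ ∞) (h : ∀ m ∈ S, cell q u v r m ⊆ B) :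
    S.card * r ^ 2 ≤ volume.real B := by
  have h1 := measureReal_biUnion_finset (μ := volume) (cells_disjoint q u v r S)
    (fun m _ => measurableSet_cell q u v r m)
    (fun m _ => by rw [volume_cell q huv hr]; exact ENNReal.ofReal_ne_top)
  have h2 : volume.real (⋃ m ∈ S, cell q u v r m) ≤ volume.real B :=
    measureReal_mono (iUnion₂_subset h) hB
  rw [h1] at h2
  simp only [measureReal_def, volume_cell q huv hr, ENNReal.toReal_ofReal (sq_nonneg r),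
    Finset.sum_const, nsmul_eq_mul] at h2
  exact h2

/-- An axis-parallel closed box. -/
def box (q : E2) (a b : ℝ) : Set E2 :=
  coords ⁻¹' (Icc (q 0 - a) (q 0 + b) ×ˢ Icc (q 1 - a) (q 1 + b))

theorem volume_box (q : E2) (a b : ℝ) :
    volume (box q a b) = ENNReal.ofReal (a + b) * ENNReal.ofReal (a + b) := by
  rw [box, coords_mp.measure_preimage_equiv, Measure.volume_eq_prod, Measure.prod_prod,
    Real.volume_Icc, Real.volume_Icc]
  congr 2 <;> ring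

theorem mem_box {q : E2} {a b : ℝ} {x : E2} :
    x ∈ box q a b ↔ (q 0 - a ≤ x 0 ∧ x 0 ≤ q 0 + b) ∧ (q 1 - a ≤ x 1 ∧ x 1 ≤ q 1 + b) := Iff.rfl

theorem isBounded_box (q : E2) (a b : ℝ) : Bornology.IsBounded (box q a b) := by
  refine (Metric.isBounded_closedBall (x := q) (r := 2 * (|a| + |b|))).subset fun x hx => ?_
  obtain ⟨⟨h1, h2⟩, h3, h4⟩ := mem_box.1 hx
  rw [Metric.mem_closedBall, dist_eq_norm]
  refine (norm_le2 _).trans ?_
  have : |x 0 - q 0| ≤ |a| + |b| := by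
    rw [abs_le]; constructor <;>
    linarith [le_abs_self a, le_abs_self b, abs_nonneg a, abs_nonneg b]
  have : |x 1 - q 1| ≤ |a| + |b| := by
    rw [abs_le]; constructor <;>
    linarith [le_abs_self a, le_abs_self b, abs_nonneg a, abs_nonneg b]
  simp only [PiLp.sub_apply]
  linarith

end Crest.Agent.R211
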