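import Mathlib
import Crest.Agent.R211.Area

/-! Triangles containing the pieces of a radial sweep. -/

set_option autoImplicit false

open MeasureTheory Set Filter
open scoped ENNReal Topology

namespace Crest.Agent.R211

theorem piece (p₀ A B W : E3) (hW : W ≠ 0) (d0 d1 k H : ℝ) (hd0 : 0 ≤ d0) (hd1 : 0 ≤ d1)
    (hΔ : 0 < d0 + d1) (hk : 0 ≤ k) (hH : 0 < H) :
    ∃ p q r : E3, inner ℝ p W = 0 ∧ inner ℝ q W = 0 ∧ inner ℝ r W = 0 ∧
      gram (q - p) (r - p) = H ^ 2 * (d0 + d1) * |det3 A B W| / ‖W‖ ∧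
      ∀ X Z ρ σ : ℝ, 0 ≤ ρ → ρ + 5 * k * (d0 + d1) ≤ H → -d0 ≤ σ → σ ≤ d1 →
        |X - ρ| ≤ k * (d0 + d1) → |Z - ρ * σ| ≤ k * (d0 + d1) ^ 2 →
        prj W (p₀ + X • A + Z • B) ∈ convexHull ℝ ({p, q, r} : Set E3) := by
  set Δ := d0 + d1 with hΔdef
  set P : E3 := p₀ + (-4 * k * Δ) • A + (-4 * k * Δ * d1 + 2 * k * Δ ^ 2) • B with hP
  refine ⟨prj W P, prj W (P + H • (A - d0 • B)), prj W (P + H • (A + d1 • B)),
    inner_prj W _ hW, inner_prj W _ hW, inner_prj W _ hW, ?_, ?_⟩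
  · have e1 : prj W (P + H • (A - d0 • B)) - prj W P = prj W (H • (A - d0 • B)) := by
      simp only [← prjL_apply, map_add]; abel
    have e2 : prj W (P + H • (A + d1 • B)) - prj W P = prj W (H • (A + d1 • B)) := by
      simp only [← prjL_apply, map_add (prjL W) P]; abel
    rw [e1, e2, gram_prj _ _ _ hW]
    have : det3 (H • (A - d0 • B)) (H • (A + d1 • B)) W = H ^ 2 * Δ * det3 A B W := by
      simp only [det3, PiLp.sub_apply, PiLp.add_apply, PiLp.smul_apply, smul_eq_mul, hΔdef]; ring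
    rw [this, abs_mul, abs_of_pos (by positivity : 0 < H ^ 2 * Δ)]
  · intro X Z ρ σ hρ hρH hσ0 hσ1 hX hZ
    rw [hull_eq]
    obtain ⟨hX1, hX2⟩ := abs_le.1 hX
    obtain ⟨hZ1, hZ2⟩ := abs_le.1 hZ
    have hHΔ : 0 < H * Δ := by positivity
    have k1 : ρ * σ ≤ ρ * d1 := by gcongr
    have k2 : ρ * (-d0) ≤ ρ * σ := by gcongr
    have k3 : ρ * d1 ≤ (X + k * Δ) * d1 := by gcongr; linarith
    have k4 : ρ * d0 ≤ (X + k * Δ) * d0 := by gcongr; linarith
    have k5 : k * Δ * d1 ≤ k * Δ * Δ := by gcongr; linarith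
    have k6 : k * Δ * d0 ≤ k * Δ * Δ := by gcongr; linarith
    refine ⟨((d1 * X + 2 * k * Δ ^ 2 - Z) / (H * Δ), (d0 * X + Z + 2 * k * Δ ^ 2) / (H * Δ)),
      ⟨div_nonneg (by nlinarith) hHΔ.le, div_nonneg (by nlinarith) hHΔ.le, ?_⟩, ?_⟩
    · simp only
      rw [← add_div, div_le_one hHΔ]
      have : d1 * X + 2 * k * Δ ^ 2 - Z + (d0 * X + Z + 2 * k * Δ ^ 2) = (X + 4 * k * Δ) * Δ := by
        rw [hΔdef]; ring
      rw [this]
      gcongr
      linarith
    · have e1 : prj W (P + H • (A - d0 • B)) - prj W P = prj W (H • (A - d0 • B)) := by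
        simp only [← prjL_apply, map_add]; abel
      have e2 : prj W (P + H • (A + d1 • B)) - prj W P = prj W (H • (A + d1 • B)) := by
        simp only [← prjL_apply, map_add (prjL W) P]; abel
      rw [e1, e2, ← prj_aff]
      congr 1
      simp only [aff, hP]
      have hd : d0 = Δ - d1 := by rw [hΔdef]; ring
      match_scalars
      · rfl
      · rw [hd]; field_simp; ring
      · rw [hd]; field_simp; ring

theorem mem_cyl (W x : E3) (S : Set E3) (h : prj W x ∈ S) :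
    ∃ y ∈ S, ∃ σ : ℝ, x = y + σ • W :=
  ⟨_, h, inner ℝ x W / ‖W‖ ^ 2, by simp [prj]⟩

theorem prj_add_smul (W x : E3) (hW : W ≠ 0) (s : ℝ) : prj W (x + s • W) = prj W x := by
  rw [← prjL_apply, map_add, map_smul, prjL_apply, prjL_apply, prj_self W hW, smul_zero, add_zero]

theorem low_piece (p₀ A B W : E3) (hW : W ≠ 0) (d0 d1 R : ℝ) (hd0 : 0 ≤ d0) (hd1 : 0 ≤ d1)
    (hR : 0 ≤ R) (S : Set E3)
    (hS : ∀ ρ σ : ℝ, 0 ≤ ρ → ρ ≤ R → -d0 ≤ σ → σ ≤ d1 → p₀ + ρ • (A + σ • B) ∈ S) :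
    ENNReal.ofReal (R ^ 2 * (d0 + d1) * |det3 A B W| / ‖W‖ / 2) ≤ μHE[2] (prj W '' S) := by
  have h1 : aff (prj W p₀) (prj W (R • (A - d0 • B))) (prj W (R • (A + d1 • B))) '' simplex ⊆
      prj W '' S := by
    rintro _ ⟨y, ⟨h1, h2, h3⟩, rfl⟩
    rw [← prj_aff]
    refine mem_image_of_mem _ ?_
    rcases eq_or_lt_of_le (add_nonneg h1 h2) with h0 | h0
    · have e1 : y.1 = 0 := by linarith
      have e2 : y.2 = 0 := by linarith
      have := hS 0 0 le_rfl hR (by linarith) hd1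
      simpa [aff, e1, e2] using this
    · have := hS ((y.1 + y.2) * R) ((-y.1 * d0 + y.2 * d1) / (y.1 + y.2)) (by positivity)
        (mul_le_of_le_one_left hR h3) (by rw [le_div_iff₀ h0]; nlinarith [mul_nonneg h2 hd0, mul_nonneg h2 hd1])
        (by rw [div_le_iff₀ h0]; nlinarith [mul_nonneg h1 hd0, mul_nonneg h1 hd1])
      convert this using 1
      simp only [aff]
      match_scalars
      · rfl
      · ring
      · field_simp
  refine le_trans (le_of_eq ?_) (measure_mono h1)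
  rw [measure_aff, volume_simplex, ← ENNReal.ofReal_mul (gram_nonneg _ _), gram_prj _ _ _ hW]
  have : det3 (R • (A - d0 • B)) (R • (A + d1 • B)) W = R ^ 2 * (d0 + d1) * det3 A B W := by
    simp only [det3, PiLp.sub_apply, PiLp.add_apply, PiLp.smul_apply, smul_eq_mul]; ring
  rw [this, abs_mul, abs_of_nonneg (by positivity : 0 ≤ R ^ 2 * (d0 + d1))]
  congr 1; ring

theorem sum_telescope {N : ℕ} (g : Fin (N + 1) → ℝ) :
    ∑ i : Fin N, (g i.succ - g i.castSucc) = g (Fin.last N) - g 0 := by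
  rw [Finset.sum_sub_distrib]
  have h1 := Fin.sum_univ_succ g
  have h2 := Fin.sum_univ_castSucc g
  linarith

theorem sum_approx {N : ℕ} (t g : Fin (N + 1) → ℝ) (μ : Fin N → ℝ) (C : ℝ)
    (h : ∀ i, |μ i - (g i.succ - g i.castSucc)| ≤ C * (t i.succ - t i.castSucc)) :
    |∑ i, μ i - (g (Fin.last N) - g 0)| ≤ C * (t (Fin.last N) - t 0) := by
  rw [← sum_telescope g, ← sum_telescope t, ← Finset.sum_sub_distrib, Finset.mul_sum]
  exact (Finset.abs_sum_le_sum_abs _ _).trans (Finset.sum_le_sum fun i _ => h i)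

theorem exists_piece {N : ℕ} (t : Fin (N + 1) → ℝ) (τ : ℝ) (h0 : t 0 ≤ τ)
    (h1 : τ ≤ t (Fin.last N)) (hlt : t 0 < t (Fin.last N)) :
    ∃ i : Fin N, t i.castSucc ≤ τ ∧ τ ≤ t i.succ := by
  by_contra hcon
  push Not at hcon
  have key : ∀ j : Fin (N + 1), t j ≤ τ ∧ (j ≠ 0 → t j < τ) := by
    intro j
    induction j using Fin.induction with
    | zero => exact ⟨h0, fun h => (h rfl).elim⟩
    | succ i ih => exact ⟨(hcon i ih.1).le, fun _ => hcon i ih.1⟩
  have hne : Fin.last N ≠ 0 := by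
    intro h; rw [h] at hlt; exact lt_irrefl _ hlt
  exact absurd ((key _).2 hne) (not_lt.2 h1)

theorem det3_sweep (e a b w : E3) (he : ‖e‖ = 1) (ha : inner ℝ a e = 0) (hb : inner ℝ b e = 0)
    (hw : inner ℝ w e = 0) (c : ℝ) : |det3 (a + c • b) b (e + w)| = gram a b := by
  have he0 : e ≠ 0 := by rintro rfl; simp at he
  have h1 : det3 a b w = 0 := by
    have hn := normsq3 e
    rw [he] at hn
    rw [inner3] at ha hb hw
    simp only [det3]
    linear_combination ((a 0 * (b 1 * w 2 - b 2 * w 1) - a 1 * (b 0 * w 2 - b 2 * w 0) +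
      a 2 * (b 0 * w 1 - b 1 * w 0))) * hn
      + (e 0 * (b 1 * w 2 - b 2 * w 1) - e 1 * (b 0 * w 2 - b 2 * w 0) +
        e 2 * (b 0 * w 1 - b 1 * w 0)) * ha
      + (a 0 * (e 1 * w 2 - e 2 * w 1) - a 1 * (e 0 * w 2 - e 2 * w 0) +
        a 2 * (e 0 * w 1 - e 1 * w 0)) * hb
      + (a 0 * (b 1 * e 2 - b 2 * e 1) - a 1 * (b 0 * e 2 - b 2 * e 0) +
        a 2 * (b 0 * e 1 - b 1 * e 0)) * hw
  have h2 : det3 (a + c • b) b (e + w) = det3 a b e + det3 a b w := by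
    simp only [det3, PiLp.add_apply, PiLp.smul_apply, smul_eq_mul]; ring
  rw [h2, h1, add_zero, gram_of_orth a b e he0 ha hb, he, div_one]

theorem norm_add_orth (e w : E3) (he : ‖e‖ = 1) (hw : inner ℝ w e = 0) :
    ‖e + w‖ = √(1 + ‖w‖ ^ 2) := by
  rw [← Real.sqrt_sq (norm_nonneg (e + w)), norm_add_sq_real, he, real_inner_comm, hw]
  congr 1; ring

theorem gram_pos_of_linearIndependent (a b : E3) (hab : LinearIndependent ℝ ![a, b]) :
    0 < gram a b := by
  rw [LinearIndependent.pair_iff] at hab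
  have ha : a ≠ 0 := by
    rintro rfl
    have := hab 1 0 (by simp)
    simp at this
  refine Real.sqrt_pos.2 (lt_of_le_of_ne ?_ ?_)
  · have := abs_real_inner_le_norm a b
    have h2 : inner ℝ a b ^ 2 ≤ (‖a‖ * ‖b‖) ^ 2 := by
      rw [← sq_abs]; gcongr
    nlinarith
  · intro h
    have h1 : ‖(inner ℝ a b) • a - (‖a‖ ^ 2) • b‖ ^ 2 = 0 := by
      rw [norm_sub_sq_real, norm_smul, norm_smul, inner_smul_left, inner_smul_right, mul_pow,
        mul_pow, Real.norm_eq_abs, Real.norm_eq_abs, sq_abs, sq_abs]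
      simp only [conj_trivial]
      linear_combination (-‖a‖ ^ 2) * h
    have h2 : (inner ℝ a b) • a + (-‖a‖ ^ 2) • b = 0 := by
      rw [neg_smul, ← sub_eq_add_neg]
      exact norm_eq_zero.1 (pow_eq_zero_iff two_ne_zero |>.1 h1)
    have := (hab _ _ h2).2
    simp [ha] at this

end Crest.Agent.R211
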