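import Mathlib
import Crest.Agent.R211.Sweep

/-! Finite families of bases. -/

set_option autoImplicit false

open MeasureTheory Set Filter
open scoped ENNReal Topology

namespace Crest.Agent.R211

theorem open_cover {ι : Type*} [Fintype ι] (u : ι → E3) (hu : ∀ i, ‖u i‖ = 1) (P : ι → Set E3)
    (hP : ∀ i, IsCompact (P i)) (h : ∀ i, ∀ x ∈ P i, inner ℝ x (u i) = 0) (η : ℝ) (hη : 0 < η) :
    ∃ B : ι → Set E3, (∀ i, P i ⊆ B i) ∧ (∀ i, Bornology.IsBounded (B i) ∧ ∃ O : Set E3, IsOpen O ∧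
      B i = O ∩ {x | inner ℝ x (u i) = 0}) ∧
      ∑ i, (μHE[2] (B i)).toReal ≤ ∑ i, (μHE[2] (P i)).toReal + η := by
  have hu0 : ∀ i, u i ≠ 0 := fun i h0 => by simpa [h0] using hu i
  choose B h1 h2 h3 using fun i => openify (u i) (hu0 i) (P i) (hP i) (h i)
    (η / (Fintype.card ι + 1)) (by positivity)
  refine ⟨B, h1, h2, (Finset.sum_le_sum fun i _ => h3 i).trans ?_⟩
  rw [Finset.sum_add_distrib, Finset.sum_const, nsmul_eq_mul, Finset.card_univ]
  have : (Fintype.card ι : ℝ) * (η / (Fintype.card ι + 1)) ≤ η := by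
    rw [← mul_div_assoc, div_le_iff₀ (by positivity)]; nlinarith
  linarith

/-- The unit vector in the direction of `W`. -/
noncomputable def unit (W : E3) : E3 := ‖W‖⁻¹ • W

theorem norm_unit {W : E3} (hW : W ≠ 0) : ‖unit W‖ = 1 := norm_smul_inv_norm hW

theorem inner_unit {W x : E3} (h : inner ℝ x W = 0) : inner ℝ x (unit W) = 0 := by
  rw [unit, inner_smul_right, h, mul_zero]

theorem smul_unit {W : E3} (hW : W ≠ 0) (s : ℝ) : s • W = (s * ‖W‖) • unit W := by
  rw [unit, smul_smul, mul_assoc, mul_inv_cancel₀ (norm_ne_zero_iff.2 hW), mul_one]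

theorem inner_aff {p a b W : E3} (hp : inner ℝ p W = 0) (ha : inner ℝ a W = 0)
    (hb : inner ℝ b W = 0) (s t : ℝ) : inner ℝ (p + s • a + t • b) W = 0 := by
  simp [inner_add_left, inner_smul_left, hp, ha, hb]

end Crest.Agent.R211
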