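import Mathlib

/-! Scalar inequalities for the tilted cover of the tetrahedron. -/

set_option autoImplicit false

open Set

namespace Crest.Agent.R211

/-- The radial cap of the sweep. -/
noncomputable def Rc (τ : ℝ) : ℝ := 1 / 2 + (1 / 300) ^ 2 * ((τ ^ 2 + τ ^ 4) / 4 + 1 / 240)

theorem exists_root (t y c : ℝ) (h : |y| ≤ t) :
    ∃ τ ∈ Icc (-1 : ℝ) 1, ∃ ρ : ℝ, 0 ≤ ρ ∧ t = ρ + c * τ ∧ y = ρ * τ + c * (1 + τ ^ 2) / 2 := by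
  obtain ⟨h1, h2⟩ := abs_le.1 h
  have ht : 0 ≤ t := (abs_nonneg y).trans h
  have hD : 0 ≤ t ^ 2 - 2 * c * y + c ^ 2 := by nlinarith [sq_nonneg (c - y)]
  obtain ⟨S, hS0, hS⟩ : ∃ S : ℝ, 0 ≤ S ∧ S ^ 2 = t ^ 2 - 2 * c * y + c ^ 2 :=
    ⟨√_, Real.sqrt_nonneg _, Real.sq_sqrt hD⟩
  rcases eq_or_lt_of_le (add_nonneg ht hS0) with h0 | h0
  · have e1 : t = 0 := by linarith
    have e2 : S = 0 := by linarith
    have e3 : y = 0 := by linarith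
    have e4 : c = 0 := by
      rw [e1, e2, e3] at hS
      exact pow_eq_zero_iff two_ne_zero |>.1 (by linarith)
    exact ⟨0, ⟨by norm_num, by norm_num⟩, 0, le_rfl, by simp [e1], by simp [e3, e4]⟩
  · have hτ : (2 * y - c) / (t + S) * (t + S) = 2 * y - c := div_mul_cancel₀ _ h0.ne'
    have hc : c * ((2 * y - c) / (t + S)) = t - S := by
      rw [← mul_div_assoc, div_eq_iff h0.ne']; linarith
    refine ⟨(2 * y - c) / (t + S), ⟨?_, ?_⟩, S, hS0, by linarith, ?_⟩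
    · rw [le_div_iff₀ h0]
      by_contra hcon
      have : S < c - 2 * y - t := by linarith
      nlinarith
    · rw [div_le_iff₀ h0]
      by_contra hcon
      have : S < 2 * y - c - t := by linarith
      nlinarith
    · linear_combination (-1 / 2) * hτ - ((2 * y - c) / (t + S) / 2) * hc

theorem dichotomy (x y t τ σ ρ ρ' : ℝ) (hx : |x| ≤ 1 - t) (hy : |y| ≤ t)
    (hτ : τ ∈ Icc (-1 : ℝ) 1) (hσ : σ ∈ Icc (-1 : ℝ) 1)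
    (e1 : t = ρ + 1 / 300 * x * τ) (e2 : y = ρ * τ + 1 / 300 * x * (1 + τ ^ 2) / 2)
    (e3 : 1 - t = ρ' + 1 / 300 * y * σ) (e4 : -x = ρ' * σ + 1 / 300 * y * (1 + σ ^ 2) / 2) :
    ρ ≤ Rc τ ∨ ρ' ≤ Rc σ := by
  by_contra hcon
  push Not at hcon
  obtain ⟨k1, k2⟩ := hcon
  unfold Rc at k1 k2
  have hτ1 : |τ| ≤ 1 := abs_le.2 hτ
  have hσ1 : |σ| ≤ 1 := abs_le.2 hσ
  have hτ2 : τ ^ 2 ≤ 1 := (sq_le_one_iff_abs_le_one τ).2 hτ1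
  have hσ2 : σ ^ 2 ≤ 1 := (sq_le_one_iff_abs_le_one σ).2 hσ1
  have hx1 : |x| ≤ 1 := by linarith [abs_nonneg y]
  have hy1 : |y| ≤ 1 := by linarith [abs_nonneg x]
  have hxτ : |x * τ| ≤ |x| := by
    rw [abs_mul]; exact mul_le_of_le_one_right (abs_nonneg _) hτ1
  have hyσ : |y * σ| ≤ |y| := by
    rw [abs_mul]; exact mul_le_of_le_one_right (abs_nonneg _) hσ1
  have hτ4 : 0 ≤ τ ^ 4 := by positivity
  have hσ4 : 0 ≤ σ ^ 4 := by positivity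
  have hρ : 1 / 2 ≤ ρ := by nlinarith [sq_nonneg τ]
  have hρ' : 1 / 2 ≤ ρ' := by nlinarith [sq_nonneg σ]
  obtain ⟨D, hD⟩ : ∃ D, D = -(x * τ + y * σ) := ⟨_, rfl⟩
  have hsum : ρ + ρ' = 1 + 1 / 300 * D := by rw [hD]; linarith
  have hx2 : |x| ≤ 1 / 2 + 1 / 300 := by linarith [(abs_le.1 (hxτ.trans hx1)).1]
  have hy2 : |y| ≤ 1 / 2 + 1 / 300 := by linarith [(abs_le.1 (hyσ.trans hy1)).1]
  have hD0 : 0 ≤ D := by linarith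
  have m1 : (ρ' - ρ) * (σ * τ) ≤ 1 / 300 * D := by
    have h1 : |ρ' - ρ| ≤ 1 / 300 * D := by rw [abs_le]; constructor <;> linarith
    have h2 : |σ * τ| ≤ 1 := by rw [abs_mul]; exact mul_le_one₀ hσ1 (abs_nonneg _) hτ1
    refine (le_abs_self _).trans ?_
    rw [abs_mul]
    exact (mul_le_of_le_one_right (abs_nonneg _) h2).trans h1
  have m2 : y * τ ≤ τ ^ 2 / 2 + (1 / 300 * D + 1 / 300 * (1 / 2 + 1 / 300)) := by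
    have h1 : ρ * τ ^ 2 ≤ (1 / 2 + 1 / 300 * D) * τ ^ 2 := by gcongr; linarith
    have h2 : D * τ ^ 2 ≤ D := mul_le_of_le_one_right hD0 hτ2
    have h3 : x * τ * ((1 + τ ^ 2) / 2) ≤ 1 / 2 + 1 / 300 := by
      refine (le_abs_self _).trans ?_
      rw [abs_mul, abs_of_nonneg (by positivity : 0 ≤ (1 + τ ^ 2) / 2)]
      exact (mul_le_of_le_one_right (abs_nonneg _) (by linarith)).trans (hxτ.trans hx2)
    have h4 : y * τ = ρ * τ ^ 2 + 1 / 300 * (x * τ * ((1 + τ ^ 2) / 2)) := by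
      linear_combination τ * e2
    linarith
  have m3 : -x * σ ≤ σ ^ 2 / 2 + (1 / 300 * D + 1 / 300 * (1 / 2 + 1 / 300)) := by
    have h1 : ρ' * σ ^ 2 ≤ (1 / 2 + 1 / 300 * D) * σ ^ 2 := by gcongr; linarith
    have h2 : D * σ ^ 2 ≤ D := mul_le_of_le_one_right hD0 hσ2
    have h3 : y * σ * ((1 + σ ^ 2) / 2) ≤ 1 / 2 + 1 / 300 := by
      refine (le_abs_self _).trans ?_
      rw [abs_mul, abs_of_nonneg (by positivity : 0 ≤ (1 + σ ^ 2) / 2)]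
      exact (mul_le_of_le_one_right (abs_nonneg _) (by linarith)).trans (hyσ.trans hy2)
    have h4 : -x * σ = ρ' * σ ^ 2 + 1 / 300 * (y * σ * ((1 + σ ^ 2) / 2)) := by
      linear_combination σ * e4
    linarith
  obtain ⟨Z, hZ⟩ : ∃ Z, Z = 1 / 300 * D + 1 / 300 * (1 / 2 + 1 / 300) := ⟨_, rfl⟩
  have hZ0 : 0 ≤ Z := by rw [hZ]; positivity
  rw [← hZ] at m2 m3
  have m4 : y * τ * ((1 + σ ^ 2) / 2) ≤ (τ ^ 2 / 2 + Z) * ((1 + σ ^ 2) / 2) := by gcongr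
  have m5 : -x * σ * ((1 + τ ^ 2) / 2) ≤ (σ ^ 2 / 2 + Z) * ((1 + τ ^ 2) / 2) := by gcongr
  have m6 : Z * σ ^ 2 ≤ Z := mul_le_of_le_one_right hZ0 hσ2
  have m7 : Z * τ ^ 2 ≤ Z := mul_le_of_le_one_right hZ0 hτ2
  have m8 : D = (ρ' - ρ) * (σ * τ) + 1 / 300 * (y * τ * ((1 + σ ^ 2) / 2)) +
      1 / 300 * (-x * σ * ((1 + τ ^ 2) / 2)) := by
    linear_combination hD + τ * e4 - σ * e2
  have m9 : 2 * (τ ^ 2 * σ ^ 2) ≤ τ ^ 4 + σ ^ 4 := by nlinarith [sq_nonneg (τ ^ 2 - σ ^ 2)]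
  have m10 : τ ^ 2 * σ ^ 2 ≤ 1 := mul_le_one₀ hτ2 (sq_nonneg _) hσ2
  nlinarith

theorem Rc_step (c τ Δ : ℝ) (hc : c ∈ Icc (-1 : ℝ) 1) (hτ : τ ∈ Icc (-1 : ℝ) 1) (h0 : c ≤ τ)
    (h1 : τ - c ≤ Δ) : Rc τ ≤ Rc c + 1 / 300 * Δ := by
  unfold Rc
  have hτ2 : τ ^ 2 ≤ 1 := (sq_le_one_iff_abs_le_one τ).2 (abs_le.2 hτ)
  have hc2 : c ^ 2 ≤ 1 := (sq_le_one_iff_abs_le_one c).2 (abs_le.2 hc)
  have h2 : (τ + c) * (1 + τ ^ 2 + c ^ 2) ≤ 2 * 3 :=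
    mul_le_mul (by linarith [hτ.2, hc.2]) (by linarith) (by positivity) (by norm_num)
  have h3 : (τ - c) * ((τ + c) * (1 + τ ^ 2 + c ^ 2)) ≤ (τ - c) * (2 * 3) := by
    gcongr
  nlinarith

/-- The primitive used to bound the Riemann sums. -/
noncomputable def Qc (τ : ℝ) : ℝ :=
  (1 / 8 + 7 / 10 ^ 9) * τ + (1 / 300) ^ 2 * ((1 / 480 - 1 / 64) * τ - τ ^ 3 / 96 + 7 * τ ^ 5 / 320)

theorem inv_sqrt_le (y : ℝ) (hy : 0 ≤ y) : 1 / √(1 + y) ≤ 1 - y / 2 + y ^ 2 / 2 := by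
  have h1 : 0 < √(1 + y) := Real.sqrt_pos.2 (by linarith)
  have h2 : 0 < 1 - y / 2 + y ^ 2 / 2 := by nlinarith [sq_nonneg (y - 1 / 2)]
  rw [div_le_iff₀ h1, ← div_le_iff₀' h2]
  apply Real.le_sqrt_of_sq_le
  rw [div_pow, div_le_iff₀ (by positivity)]
  have : 0 ≤ y ^ 2 * (1 / 4 + 3 / 4 * y - y ^ 2 / 4 + y ^ 3 / 4) := by
    refine mul_nonneg (sq_nonneg _) ?_
    nlinarith [mul_nonneg hy (sq_nonneg (y - 1 / 2))]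
  nlinarith

theorem term_le (c Δ : ℝ) (hc : c ∈ Icc (-1 : ℝ) 1) (hΔ : Δ = 1 / 2000000) :
    (Rc c + 6 * (1 / 300) * Δ) ^ 2 * Δ /
      √(1 + (1 / 300) ^ 2 * (2 * c ^ 2 + (1 + c ^ 2) ^ 2 / 4)) / 2 ≤ Qc (c + Δ) - Qc c := by
  have hc2 : c ^ 2 ≤ 1 := (sq_le_one_iff_abs_le_one c).2 (abs_le.2 hc)
  have hc4 : c ^ 4 ≤ 1 := by nlinarith [sq_nonneg c]
  have hc40 : 0 ≤ c ^ 4 := by positivity
  have hc20 : 0 ≤ c ^ 2 := by positivity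
  obtain ⟨y, hy⟩ : ∃ y, y = (1 / 300) ^ 2 * (2 * c ^ 2 + (1 + c ^ 2) ^ 2 / 4) := ⟨_, rfl⟩
  obtain ⟨e, he⟩ : ∃ e, e = (1 / 300) ^ 2 * ((c ^ 2 + c ^ 4) / 4 + 1 / 240) + 6 * (1 / 300) * Δ :=
    ⟨_, rfl⟩
  have hy0 : 0 ≤ y := by rw [hy]; positivity
  have hy1 : y ≤ 3 * (1 / 300) ^ 2 := by rw [hy]; nlinarith
  have he0 : 0 ≤ e := by rw [he, hΔ]; positivity
  have he1 : e ≤ (1 / 300) ^ 2 := by rw [he, hΔ]; nlinarith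
  have hR : Rc c + 6 * (1 / 300) * Δ = 1 / 2 + e := by rw [he, Rc]; ring
  rw [hR, ← hy]
  have h1 := inv_sqrt_le y hy0
  have h2 : (1 / 2 + e) ^ 2 * Δ / √(1 + y) / 2 = Δ * ((1 / 2 + e) ^ 2 / 2 * (1 / √(1 + y))) := by
    ring
  have h3 : (1 / 2 + e) ^ 2 / 2 * (1 / √(1 + y)) ≤ (1 / 2 + e) ^ 2 / 2 * (1 - y / 2 + y ^ 2 / 2) := by
    gcongr
  have hy2 : y ^ 2 ≤ (3 * (1 / 300) ^ 2) ^ 2 := by gcongr
  have he2 : e ^ 2 ≤ ((1 / 300) ^ 2) ^ 2 := by gcongr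
  have h4 : (1 / 2 + e) ^ 2 / 2 * (1 - y / 2 + y ^ 2 / 2) ≤
      1 / 8 + e / 2 - y / 16 + 7 / 10 ^ 10 := by
    have a1 : 0 ≤ e * y := mul_nonneg he0 hy0
    have a2 : 0 ≤ e ^ 2 * y := by positivity
    have a3 : (1 / 2 + e) ^ 2 / 2 * y ^ 2 ≤ 1 * y ^ 2 := by gcongr; nlinarith
    nlinarith
  have h5 : Δ * (1 / 8 + e / 2 - y / 16 + 7 / 10 ^ 10) ≤ Qc (c + Δ) - Qc c := by
    have hc3 : -1 ≤ c ^ 3 := by nlinarith [hc.1, sq_nonneg (c - 1 / 2)]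
    rw [he, hy, hΔ, Qc, Qc]
    nlinarith [hc.1, hc.2]
  rw [h2]
  refine le_trans ?_ h5
  have : 0 ≤ Δ := by rw [hΔ]; norm_num
  gcongr
  exact h3.trans h4

theorem Qc_total : Qc 1 - Qc (-1) ≤ 1 / 4 - 1 / 10 ^ 8 := by
  unfold Qc; norm_num

end Crest.Agent.R211
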