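import Mathlib
import Crest.Agent.R211.Open
import Crest.Agent.R211.Scalar

/-! The regular tetrahedron: least projection and the tilted cover. -/

set_option autoImplicit false

open MeasureTheory Set Filter
open scoped ENNReal Topology

namespace Crest.Agent.R211

/-- An orthogonal frame adapted to a regular tetrahedron. -/
structure Frame (E B A : E3) (m : ℝ) : Prop where
  pos : 0 < m
  hE : ‖E‖ ^ 2 = m
  hB : ‖B‖ ^ 2 = m
  hA : ‖A‖ ^ 2 = 2 * m
  EB : inner ℝ E B = 0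
  EA : inner ℝ E A = 0
  BA : inner ℝ B A = 0

theorem Frame.flip {E B A : E3} {m : ℝ} (F : Frame E B A m) : Frame B (-E) (-A) m where
  pos := F.pos
  hE := F.hB
  hB := by rw [norm_neg, F.hE]
  hA := by rw [norm_neg, F.hA]
  EB := by rw [inner_neg_right, real_inner_comm, F.EB, neg_zero]
  EA := by rw [inner_neg_right, F.BA, neg_zero]
  BA := by rw [inner_neg_neg, F.EA]

theorem Frame.det {E B A : E3} {m : ℝ} (F : Frame E B A m) : det3 A B E ^ 2 = 2 * m ^ 3 := by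
  rw [det3_sq, F.hE, F.hB, F.hA, real_inner_comm B A, real_inner_comm E B, real_inner_comm E A,
    F.EB, F.EA, F.BA]
  ring

theorem tet_subset (o E B A : E3) :
    convexHull ℝ ({o + E, o - E, o + A + B, o + A - B} : Set E3) ⊆
      {z | ∃ x y t : ℝ, |x| ≤ 1 - t ∧ |y| ≤ t ∧ z = o + x • E + y • B + t • A} := by
  refine convexHull_min ?_ ?_
  · rintro z (rfl | rfl | rfl | rfl)
    · exact ⟨1, 0, 0, by simp, by simp, by module⟩
    · exact ⟨-1, 0, 0, by simp, by simp, by module⟩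
    · exact ⟨0, 1, 1, by simp, by simp, by module⟩
    · exact ⟨0, -1, 1, by simp, by simp, by module⟩
  · rintro _ ⟨x, y, t, h1, h2, rfl⟩ _ ⟨x', y', t', h1', h2', rfl⟩ a b ha hb hab
    refine ⟨a * x + b * x', a * y + b * y', a * t + b * t', ?_, ?_, ?_⟩
    · refine (abs_add_le _ _).trans ?_
      rw [abs_mul, abs_mul, abs_of_nonneg ha, abs_of_nonneg hb]
      nlinarith [mul_le_mul_of_nonneg_left h1 ha, mul_le_mul_of_nonneg_left h1' hb]
    · refine (abs_add_le _ _).trans ?_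
      rw [abs_mul, abs_mul, abs_of_nonneg ha, abs_of_nonneg hb]
      nlinarith [mul_le_mul_of_nonneg_left h2 ha, mul_le_mul_of_nonneg_left h2' hb]
    · have : b = 1 - a := by linarith
      subst this
      module

theorem half_cover (p₀ E B A : E3) (m : ℝ) (F : Frame E B A m) (N : ℕ) (hN : (N : ℝ) = 4000000) :
    ∃ u p q r : Fin N → E3, (∀ i, ‖u i‖ = 1) ∧
      (∀ i, inner ℝ (p i) (u i) = 0 ∧ inner ℝ (q i) (u i) = 0 ∧ inner ℝ (r i) (u i) = 0) ∧
      (∀ s τ ρ : ℝ, |s| ≤ 1 → τ ∈ Icc (-1 : ℝ) 1 → 0 ≤ ρ → ρ ≤ Rc τ →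
        ∃ i, ∃ b ∈ convexHull ℝ ({p i, q i, r i} : Set E3), ∃ σ : ℝ,
          p₀ + s • E + (ρ * τ + 1 / 300 * s * (1 + τ ^ 2) / 2) • B + (ρ + 1 / 300 * s * τ) • A =
            b + σ • u i) ∧
      ∑ i, gram (q i - p i) (r i - p i) / 2 ≤ √2 * m * (1 / 4 - 1 / 10 ^ 8) := by
  obtain ⟨Δ, hΔ⟩ : ∃ Δ : ℝ, Δ = 1 / 2000000 := ⟨_, rfl⟩
  have hΔ0 : 0 < Δ := by rw [hΔ]; norm_num
  set t : Fin (N + 1) → ℝ := fun j => -1 + (j : ℕ) * Δ with ht
  have ht0 : t 0 = -1 := by simp [ht]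
  have htN : t (Fin.last N) = 1 := by simp only [ht, Fin.val_last, hN, hΔ]; norm_num
  have hts : ∀ i : Fin N, t i.succ = t i.castSucc + Δ := fun i => by simp [ht]; ring
  have htm : ∀ j, t j ∈ Icc (-1 : ℝ) 1 := fun j => by
    have h1 : ((j : ℕ) : ℝ) ≤ N := by exact_mod_cast Nat.lt_succ_iff.1 j.2
    have h2 : (0 : ℝ) ≤ (j : ℕ) := Nat.cast_nonneg _
    simp only [ht]
    rw [hN] at h1
    rw [hΔ]
    constructor <;> linarith
  set c : Fin N → ℝ := fun i => t i.castSucc with hc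
  set W : Fin N → E3 := fun i =>
    E + (1 / 300 * c i) • A + (1 / 300 * (1 + c i ^ 2) / 2) • B with hW
  have hm := F.pos
  have hWn : ∀ i, ‖W i‖ = √m * √(1 + (1 / 300) ^ 2 * (2 * c i ^ 2 + (1 + c i ^ 2) ^ 2 / 4)) := by
    intro i
    rw [← Real.sqrt_mul hm.le, ← Real.sqrt_sq (norm_nonneg (W i))]
    congr 1
    have h1 := F.hE
    have h2 := F.hB
    have h3 := F.hA
    have h4 := F.EB
    have h5 := F.EA
    have h6 := F.BA
    rw [normsq3] at h1 h2 h3 ⊢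
    rw [inner3] at h4 h5 h6
    simp only [hW, PiLp.add_apply, PiLp.smul_apply, smul_eq_mul]
    linear_combination h1 + (1 / 300 * (1 + c i ^ 2) / 2) ^ 2 * h2 + (1 / 300 * c i) ^ 2 * h3 +
      2 * (1 / 300 * (1 + c i ^ 2) / 2) * h4 + 2 * (1 / 300 * c i) * h5 +
      2 * (1 / 300 * c i) * (1 / 300 * (1 + c i ^ 2) / 2) * h6
  have hsq : ∀ i, 0 < √(1 + (1 / 300) ^ 2 * (2 * c i ^ 2 + (1 + c i ^ 2) ^ 2 / 4)) :=
    fun i => Real.sqrt_pos.2 (by positivity)
  have hsm : 0 < √m := Real.sqrt_pos.2 hm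
  have hW0 : ∀ i, W i ≠ 0 := fun i => norm_pos_iff.1 (by rw [hWn]; exact mul_pos hsm (hsq i))
  have hdet : ∀ i, |det3 (A + c i • B) B (W i)| = √2 * m * √m := fun i => by
    have h1 : det3 (A + c i • B) B (W i) = det3 A B E := by
      simp only [det3, hW, PiLp.add_apply, PiLp.smul_apply, smul_eq_mul]; ring
    rw [h1, ← Real.sqrt_sq_eq_abs, F.det, ← Real.sqrt_sq (by positivity : 0 ≤ √2 * m * √m),
      mul_pow, mul_pow, Real.sq_sqrt hm.le, Real.sq_sqrt (by norm_num)]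
    congr 1; ring
  have hH : ∀ i, 0 < Rc (c i) + 6 * (1 / 300) * Δ := fun i => by unfold Rc; positivity
  choose p q r hp hq hr hgram hmem using fun i : Fin N => piece p₀ (A + c i • B) B (W i) (hW0 i)
    0 Δ (1 / 300) (Rc (c i) + 6 * (1 / 300) * Δ) le_rfl hΔ0.le (by linarith) (by norm_num) (hH i)
  simp only [zero_add, hdet, hWn, neg_zero] at hgram hmem
  refine ⟨fun i => unit (W i), p, q, r, fun i => norm_unit (hW0 i),
    fun i => ⟨inner_unit (hp i), inner_unit (hq i), inner_unit (hr i)⟩, ?_, ?_⟩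
  · intro s τ ρ hs hτ hρ0 hρ
    obtain ⟨i, hi1, hi2⟩ := exists_piece t τ (ht0 ▸ hτ.1) (htN ▸ hτ.2)
      (by rw [ht0, htN]; norm_num)
    rw [hts] at hi2
    change c i ≤ τ at hi1
    change τ ≤ c i + Δ at hi2
    have e1 : p₀ + s • E + (ρ * τ + 1 / 300 * s * (1 + τ ^ 2) / 2) • B +
        (ρ + 1 / 300 * s * τ) • A =
        p₀ + (ρ + 1 / 300 * s * (τ - c i)) • (A + c i • B) +
          (ρ * (τ - c i) + 1 / 300 * s * ((τ - c i) ^ 2 / 2)) • B + s • W i := by
      simp only [hW]; module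
    have h1 := hmem i (ρ + 1 / 300 * s * (τ - c i))
      (ρ * (τ - c i) + 1 / 300 * s * ((τ - c i) ^ 2 / 2)) ρ (τ - c i) hρ0
      (by linarith [Rc_step (c i) τ Δ (htm _) hτ hi1 (by linarith)]) (by linarith) (by linarith)
      (by
        rw [add_sub_cancel_left, abs_mul, abs_mul, abs_of_nonneg (by linarith : 0 ≤ τ - c i),
          abs_of_pos (by norm_num : (0 : ℝ) < 1 / 300)]
        have : |s| * (τ - c i) ≤ 1 * Δ :=
          mul_le_mul hs (by linarith) (by linarith) zero_le_one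
        linarith)
      (by
        rw [add_sub_cancel_left, abs_mul, abs_mul, abs_of_nonneg (by positivity : 0 ≤ (τ - c i) ^ 2 / 2),
          abs_of_pos (by norm_num : (0 : ℝ) < 1 / 300)]
        have h2 : (τ - c i) ^ 2 ≤ Δ ^ 2 := by gcongr <;> linarith
        have : |s| * ((τ - c i) ^ 2 / 2) ≤ 1 * Δ ^ 2 :=
          mul_le_mul hs (by linarith [sq_nonneg Δ]) (by positivity) zero_le_one
        linarith)
    rw [← prj_add_smul _ _ (hW0 i) s, ← e1] at h1
    obtain ⟨b, hb, σ, hσ⟩ := mem_cyl _ _ _ h1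
    exact ⟨i, b, hb, σ * ‖W i‖, by rw [hσ, smul_unit (hW0 i)]⟩
  · have h1 : ∀ i, gram (q i - p i) (r i - p i) / 2 ≤
        √2 * m * (Qc (t i.succ) - Qc (t i.castSucc)) := fun i => by
      rw [hgram, hts]
      have h2 := term_le (c i) Δ (htm _) hΔ
      have h3 := mul_le_mul_of_nonneg_left h2 (by positivity : 0 ≤ √2 * m)
      refine le_trans (le_of_eq ?_) h3
      have := hsq i
      field_simp
    refine (Finset.sum_le_sum fun i _ => h1 i).trans ?_
    rw [← Finset.mul_sum, sum_telescope (fun j => Qc (t j)), ht0, htN]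
    exact mul_le_mul_of_nonneg_left Qc_total (by positivity)

theorem tet_cover (o E B A : E3) (m : ℝ) (F : Frame E B A m) (N : ℕ) (hN : (N : ℝ) = 4000000) :
    ∃ u p q r : Fin N ⊕ Fin N → E3, (∀ i, ‖u i‖ = 1) ∧
      (∀ i, inner ℝ (p i) (u i) = 0 ∧ inner ℝ (q i) (u i) = 0 ∧ inner ℝ (r i) (u i) = 0) ∧
      (∀ z ∈ convexHull ℝ ({o + E, o - E, o + A + B, o + A - B} : Set E3),
        ∃ i, ∃ b ∈ convexHull ℝ ({p i, q i, r i} : Set E3), ∃ σ : ℝ, z = b + σ • u i) ∧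
      ∑ i, gram (q i - p i) (r i - p i) / 2 ≤ √2 * m * (1 / 2 - 2 / 10 ^ 8) := by
  obtain ⟨u, p, q, r, h1, h2, h3, h4⟩ := half_cover o E B A m F N hN
  obtain ⟨u', p', q', r', h1', h2', h3', h4'⟩ := half_cover (o + A) B (-E) (-A) m F.flip N hN
  refine ⟨Sum.elim u u', Sum.elim p p', Sum.elim q q', Sum.elim r r', ?_, ?_, ?_, ?_⟩
  · rintro (i | i); exacts [h1 i, h1' i]
  · rintro (i | i); exacts [h2 i, h2' i]
  · intro z hz
    obtain ⟨x, y, t, hx, hy, rfl⟩ := tet_subset o E B A hz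
    obtain ⟨τ, hτ, ρ, hρ, e1, e2⟩ := exists_root t y (1 / 300 * x) hy
    obtain ⟨σ, hσ, ρ', hρ', e3, e4⟩ := exists_root (1 - t) (-x) (1 / 300 * y) (by rwa [abs_neg])
    rcases dichotomy x y t τ σ ρ ρ' hx hy hτ hσ e1 e2 e3 e4 with h | h
    · obtain ⟨i, b, hb, s, hs⟩ := h3 x τ ρ (by linarith [abs_nonneg y]) hτ hρ h
      exact ⟨Sum.inl i, b, hb, s, by rw [← e1, ← e2] at hs; exact hs⟩
    · obtain ⟨i, b, hb, s, hs⟩ := h3' y σ ρ' (by linarith [abs_nonneg x]) hσ hρ' h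
      refine ⟨Sum.inr i, b, hb, s, ?_⟩
      rw [← e3, ← e4] at hs
      refine Eq.trans ?_ hs
      module
  · rw [Fintype.sum_sum_type]
    simp only [Sum.elim_inl, Sum.elim_inr]
    linarith

theorem aff_simplex_subset {K : Set E3} (hK : Convex ℝ K) {P Q R : E3} (hP : P ∈ K) (hQ : Q ∈ K)
    (hR : R ∈ K) (v : E3) :
    aff (prj v P) (prj v (Q - P)) (prj v (R - P)) '' simplex ⊆ prj v '' K := by
  rintro _ ⟨y, hy, rfl⟩
  rw [← prj_aff]
  refine mem_image_of_mem _ ?_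
  have : convexHull ℝ ({P, Q, R} : Set E3) ⊆ K :=
    convexHull_min (by rintro _ (rfl | rfl | rfl) <;> assumption) hK
  exact this (hull_eq P Q R ▸ mem_image_of_mem _ hy)

theorem tri_le {K : Set E3} (hK : Convex ℝ K) {P Q R : E3} (hP : P ∈ K) (hQ : Q ∈ K)
    (hR : R ∈ K) (v : E3) (hv : ‖v‖ = 1) :
    ENNReal.ofReal (|det3 (Q - P) (R - P) v| / 2) ≤ μHE[2] (prj v '' K) := by
  have hv0 : v ≠ 0 := by rintro rfl; simp at hv
  refine le_trans (le_of_eq ?_) (measure_mono (aff_simplex_subset hK hP hQ hR v))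
  rw [measure_aff, volume_simplex, ← ENNReal.ofReal_mul (gram_nonneg _ _), gram_prj _ _ _ hv0, hv]
  congr 1; ring

theorem quad_le' {K : Set E3} (hK : Convex ℝ K) {P Q R S : E3} (hP : P ∈ K) (hQ : Q ∈ K)
    (hR : R ∈ K) (hS : S ∈ K) (v : E3) (hv : ‖v‖ = 1) (h1 : 0 < det3 (Q - P) (R - P) v)
    (h2 : det3 (Q - P) (S - P) v ≤ 0) :
    ENNReal.ofReal ((det3 (Q - P) (R - P) v - det3 (Q - P) (S - P) v) / 2) ≤
      μHE[2] (prj v '' K) := by
  have hv0 : v ≠ 0 := by rintro rfl; simp at hv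
  set H : Set E3 := {x | 0 < det3 (Q - P) (x - P) v} with hH
  have hHm : MeasurableSet H := by
    refine (isOpen_lt continuous_const ?_).measurableSet
    unfold det3; fun_prop
  have key : ∀ (T : E3) (y : ℝ × ℝ), det3 (Q - P)
      (aff (prj v P) (prj v (Q - P)) (prj v (T - P)) y - P) v = y.2 * det3 (Q - P) (T - P) v := by
    intro T y
    simp only [det3, aff, prj, PiLp.add_apply, PiLp.sub_apply, PiLp.smul_apply, smul_eq_mul]
    ring
  rw [← measure_inter_add_sdiff (prj v '' K) hHm]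
  have a1 : aff (prj v P) (prj v (Q - P)) (prj v (R - P)) '' (simplex \ univ ×ˢ {0}) ⊆
      prj v '' K ∩ H := by
    rintro _ ⟨y, ⟨hy, hy0⟩, rfl⟩
    refine ⟨aff_simplex_subset hK hP hQ hR v (mem_image_of_mem _ hy), ?_⟩
    rw [hH, mem_ofPred_eq, key]
    exact mul_pos (lt_of_le_of_ne hy.2.1 (fun h => hy0 ⟨trivial, h.symm⟩)) h1
  have a2 : aff (prj v P) (prj v (Q - P)) (prj v (S - P)) '' simplex ⊆ prj v '' K \ H := by
    rintro _ ⟨y, hy, rfl⟩
    refine ⟨aff_simplex_subset hK hP hQ hS v (mem_image_of_mem _ hy), ?_⟩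
    rw [hH, mem_ofPred_eq, key, not_lt]
    exact mul_nonpos_of_nonneg_of_nonpos hy.2.1 h2
  refine le_trans (le_of_eq ?_) (add_le_add (measure_mono a1) (measure_mono a2))
  have hnull : volume ((univ : Set ℝ) ×ˢ ({0} : Set ℝ)) = 0 := by
    rw [Measure.volume_eq_prod, Measure.prod_prod]; simp
  rw [measure_aff, measure_aff, measure_sdiff_null hnull, volume_simplex, gram_prj _ _ _ hv0,
    gram_prj _ _ _ hv0, hv, ← ENNReal.ofReal_mul (by positivity),
    ← ENNReal.ofReal_mul (by positivity), ← ENNReal.ofReal_add (by positivity) (by positivity),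
    abs_of_pos h1, abs_of_nonpos h2]
  congr 1; ring

theorem quad_le {K : Set E3} (hK : Convex ℝ K) {P Q R S : E3} (hP : P ∈ K) (hQ : Q ∈ K)
    (hR : R ∈ K) (hS : S ∈ K) (v : E3) (hv : ‖v‖ = 1) :
    ENNReal.ofReal (|det3 (Q - P) (R - S) v| / 2) ≤ μHE[2] (prj v '' K) := by
  have e : det3 (Q - P) (R - S) v = det3 (Q - P) (R - P) v - det3 (Q - P) (S - P) v := by
    simp only [det3, PiLp.sub_apply]; ring
  rw [e]
  have t1 := tri_le hK hP hQ hR v hv
  have t2 := tri_le hK hP hQ hS v hv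
  rcases lt_or_ge 0 (det3 (Q - P) (R - P) v) with h1 | h1 <;>
  rcases lt_or_ge 0 (det3 (Q - P) (S - P) v) with h2 | h2
  · rw [abs_of_pos h1] at t1
    rw [abs_of_pos h2] at t2
    rcases le_total (det3 (Q - P) (R - P) v) (det3 (Q - P) (S - P) v) with h | h
    · rw [abs_of_nonpos (by linarith)]
      exact (ENNReal.ofReal_le_ofReal (by linarith)).trans t2
    · rw [abs_of_nonneg (by linarith)]
      exact (ENNReal.ofReal_le_ofReal (by linarith)).trans t1
  · rw [abs_of_nonneg (by linarith)]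
    exact quad_le' hK hP hQ hR hS v hv h1 h2
  · rw [abs_of_nonpos (by linarith), neg_sub]
    exact quad_le' hK hP hQ hS hR v hv h2 h1
  · rw [abs_of_nonpos h1] at t1
    rw [abs_of_nonpos h2] at t2
    rcases le_total (det3 (Q - P) (R - P) v) (det3 (Q - P) (S - P) v) with h | h
    · rw [abs_of_nonpos (by linarith)]
      exact (ENNReal.ofReal_le_ofReal (by linarith)).trans t1
    · rw [abs_of_nonneg (by linarith)]
      exact (ENNReal.ofReal_le_ofReal (by linarith)).trans t2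

theorem max_ge (a b c s : ℝ) (ha : 0 ≤ a) (hb : 0 ≤ b) (hc : 0 ≤ c) (hs : 0 ≤ s)
    (h : a ^ 2 + b ^ 2 + 2 * c ^ 2 = s ^ 2) : s ≤ 2 * c ∨ s ≤ a + b ∨ s ≤ a + c ∨ s ≤ b + c := by
  by_contra hcon
  push Not at hcon
  obtain ⟨h1, h2, h3, h4⟩ := hcon
  have k1 : (2 * c) ^ 2 < s ^ 2 := by gcongr
  have k2 : (a + b) ^ 2 < s ^ 2 := by gcongr
  have k3 : (a + c) ^ 2 < s ^ 2 := by gcongr
  have k4 : (b + c) ^ 2 < s ^ 2 := by gcongr
  rcases le_total a b with hab | hab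
  · have : a < c := by nlinarith
    have : c < b := by nlinarith
    nlinarith
  · have : b < c := by nlinarith
    have : c < a := by nlinarith
    nlinarith

theorem abs_add_or (a b : ℝ) : |a + b| = |a| + |b| ∨ |a - b| = |a| + |b| := by
  rcases le_total 0 a with ha | ha <;> rcases le_total 0 b with hb | hb
  · left; rw [abs_of_nonneg ha, abs_of_nonneg hb, abs_of_nonneg (by linarith)]
  · right; rw [abs_of_nonneg ha, abs_of_nonpos hb, abs_of_nonneg (by linarith)]; ring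
  · right; rw [abs_of_nonpos ha, abs_of_nonneg hb, abs_of_nonpos (by linarith)]; ring
  · left; rw [abs_of_nonpos ha, abs_of_nonpos hb, abs_of_nonpos (by linarith)]; ring

theorem min_proj (o E B A : E3) (m : ℝ) (F : Frame E B A m) (v : E3) (hv : ‖v‖ = 1) :
    ENNReal.ofReal (√2 * m) ≤
      μHE[2] (prj v '' convexHull ℝ ({o + E, o - E, o + A + B, o + A - B} : Set E3)) := by
  set K := convexHull ℝ ({o + E, o - E, o + A + B, o + A - B} : Set E3) with hK
  have hc : Convex ℝ K := convex_convexHull _ _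
  have w0 : o + E ∈ K := subset_convexHull _ _ (by simp)
  have w1 : o - E ∈ K := subset_convexHull _ _ (by simp)
  have w2 : o + A + B ∈ K := subset_convexHull _ _ (by simp)
  have w3 : o + A - B ∈ K := subset_convexHull _ _ (by simp)
  obtain ⟨y1, hy1⟩ : ∃ y, y = det3 B A v := ⟨_, rfl⟩
  obtain ⟨y2, hy2⟩ : ∃ y, y = det3 A E v := ⟨_, rfl⟩
  obtain ⟨y3, hy3⟩ : ∃ y, y = det3 E B v := ⟨_, rfl⟩
  have hm := F.pos
  have hsum : |y1| ^ 2 + |y2| ^ 2 + 2 * |y3| ^ 2 = (√2 * m) ^ 2 := by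
    rw [sq_abs, sq_abs, sq_abs, mul_pow, Real.sq_sqrt (by norm_num)]
    have hd := F.det
    have cr : det3 A B E • v = -(y1 • E + y2 • B + y3 • A) := by
      ext i
      fin_cases i <;> simp [det3, hy1, hy2, hy3] <;> ring
    have h1 := congrArg (fun x => ‖x‖ ^ 2) cr
    simp only [norm_smul, mul_pow, hv, Real.norm_eq_abs, sq_abs, norm_neg, norm_add_sq_real,
      inner_add_left, inner_smul_left, inner_smul_right, F.EB, F.EA, F.BA, F.hE, F.hB, F.hA,
      hd] at h1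
    have : m * (y1 ^ 2 + y2 ^ 2 + 2 * y3 ^ 2 - 2 * m ^ 2) = 0 := by linarith
    rcases mul_eq_zero.1 this with h | h
    · exact absurd h hm.ne'
    · linarith
  have d1 : det3 (o + E - (o - E)) (o + A + B - (o + A - B)) v = 4 * y3 := by
    simp only [hy3, det3, PiLp.add_apply, PiLp.sub_apply]; ring
  have d2 : det3 (o + A + B - (o + E)) (o + A - B - (o - E)) v = 2 * (y1 + y2) := by
    simp only [hy1, hy2, det3, PiLp.add_apply, PiLp.sub_apply]; ring
  have d3 : det3 (o + A + B - (o - E)) (o + A - B - (o + E)) v = 2 * (y1 - y2) := by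
    simp only [hy1, hy2, det3, PiLp.add_apply, PiLp.sub_apply]; ring
  have d4 : det3 (o + A + B - (o + A - B)) (o - E - (o + A - B)) v = -(2 * (y1 - y3)) := by
    simp only [hy1, hy3, det3, PiLp.add_apply, PiLp.sub_apply]; ring
  have d5 : det3 (o + A + B - (o + A - B)) (o + E - (o + A - B)) v = -(2 * (y1 + y3)) := by
    simp only [hy1, hy3, det3, PiLp.add_apply, PiLp.sub_apply]; ring
  have d6 : det3 (o + E - (o - E)) (o + A + B - (o - E)) v = -(2 * (y2 - y3)) := by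
    simp only [hy2, hy3, det3, PiLp.add_apply, PiLp.sub_apply]; ring
  have d7 : det3 (o + E - (o - E)) (o + A - B - (o - E)) v = -(2 * (y2 + y3)) := by
    simp only [hy2, hy3, det3, PiLp.add_apply, PiLp.sub_apply]; ring
  have q1 := quad_le hc w1 w0 w2 w3 v hv
  have q2 := quad_le hc w0 w2 w3 w1 v hv
  have q3 := quad_le hc w1 w2 w3 w0 v hv
  have q4 := tri_le hc w3 w2 w1 v hv
  have q5 := tri_le hc w3 w2 w0 v hv
  have q6 := tri_le hc w1 w0 w2 v hv
  have q7 := tri_le hc w1 w0 w3 v hv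
  rw [d1, abs_mul] at q1
  rw [d2, abs_mul] at q2
  rw [d3, abs_mul] at q3
  rw [d4, abs_neg, abs_mul] at q4
  rw [d5, abs_neg, abs_mul] at q5
  rw [d6, abs_neg, abs_mul] at q6
  rw [d7, abs_neg, abs_mul] at q7
  rw [abs_of_pos (by norm_num : (0 : ℝ) < 4)] at q1
  rw [abs_two] at q2 q3 q4 q5 q6 q7
  rcases max_ge _ _ _ _ (abs_nonneg y1) (abs_nonneg y2) (abs_nonneg y3) (by positivity) hsum with
    h | h | h | h
  · exact (ENNReal.ofReal_le_ofReal (by linarith)).trans q1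
  · rcases abs_add_or y1 y2 with k | k
    · exact (ENNReal.ofReal_le_ofReal (by linarith)).trans q2
    · exact (ENNReal.ofReal_le_ofReal (by linarith)).trans q3
  · rcases abs_add_or y1 y3 with k | k
    · exact (ENNReal.ofReal_le_ofReal (by linarith)).trans q5
    · exact (ENNReal.ofReal_le_ofReal (by linarith)).trans q4
  · rcases abs_add_or y2 y3 with k | k
    · exact (ENNReal.ofReal_le_ofReal (by linarith)).trans q7
    · exact (ENNReal.ofReal_le_ofReal (by linarith)).trans q6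

theorem min_proj_toReal (o E B A : E3) (m : ℝ) (F : Frame E B A m) (v : E3) (hv : ‖v‖ = 1) :
    √2 * m ≤ (μHE[2] (prj v '' convexHull ℝ
      ({o + E, o - E, o + A + B, o + A - B} : Set E3))).toReal := by
  have hv0 : v ≠ 0 := by rintro rfl; simp at hv
  refine (ENNReal.ofReal_le_iff_le_toReal (measure_prj_lt_top v hv0 _ ?_).ne).1
    (min_proj o E B A m F v hv)
  exact (Set.toFinite _).isCompact_convexHull ℝ

/-! The standard tetrahedron. -/

theorem std_frame : Frame (!₂[1, 0, 0] : E3) !₂[0, 1, 0] !₂[0, 0, √2] 1 where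
  pos := one_pos
  hE := by rw [normsq3]; simp
  hB := by rw [normsq3]; simp
  hA := by rw [normsq3]; simp
  EB := by rw [inner3]; simp
  EA := by rw [inner3]; simp
  BA := by rw [inner3]; simp

theorem std_eq : ({!₂[1, 0, 0], !₂[-1, 0, 0], !₂[0, 1, √2], !₂[0, -1, √2]} : Set E3) =
    {(0 : E3) + !₂[1, 0, 0], (0 : E3) - !₂[1, 0, 0], (0 : E3) + !₂[0, 0, √2] + !₂[0, 1, 0],
      (0 : E3) + !₂[0, 0, √2] - !₂[0, 1, 0]} := by
  have e1 : (0 : E3) + !₂[1, 0, 0] = !₂[1, 0, 0] := zero_add _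
  have e2 : (0 : E3) - !₂[1, 0, 0] = !₂[-1, 0, 0] := by ext i; fin_cases i <;> simp
  have e3 : (0 : E3) + !₂[0, 0, √2] + !₂[0, 1, 0] = !₂[0, 1, √2] := by
    ext i; fin_cases i <;> simp
  have e4 : (0 : E3) + !₂[0, 0, √2] - !₂[0, 1, 0] = !₂[0, -1, √2] := by
    ext i; fin_cases i <;> simp
  rw [e1, e2, e3, e4]

/-- A cover with any prescribed larger total area and any larger number of cylinders. -/
theorem std_cover (n : ℕ) (hn : 8000001 ≤ n) (a : ℝ) (ha : √2 * (1 / 2 - 2 / 10 ^ 8) ≤ a) :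
    ∃ u p q r : Fin n → E3, (∀ i, ‖u i‖ = 1) ∧
      (∀ i, inner ℝ (p i) (u i) = 0 ∧ inner ℝ (q i) (u i) = 0 ∧ inner ℝ (r i) (u i) = 0) ∧
      convexHull ℝ ({!₂[1, 0, 0], !₂[-1, 0, 0], !₂[0, 1, √2], !₂[0, -1, √2]} : Set E3) ⊆
        ⋃ i, {x : E3 | ∃ b ∈ convexHull ℝ {p i, q i, r i}, ∃ t : ℝ, x = b + t • u i} ∧
      ∑ i, (μHE[2] (convexHull ℝ ({p i, q i, r i} : Set E3))).toReal = a := by
  obtain ⟨N, hN⟩ : ∃ N : ℕ, N = 4000000 := ⟨_, rfl⟩
  obtain ⟨u, p, q, r, h1, h2, h3, h4⟩ := tet_cover 0 _ _ _ 1 std_frame N (by rw [hN]; norm_num)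
  obtain ⟨k, hk⟩ : ∃ k, n = N + N + (1 + k) := ⟨n - 8000001, by omega⟩
  let e : Fin n ≃ (Fin N ⊕ Fin N) ⊕ (Unit ⊕ Fin k) := Fintype.equivOfCardEq (by simp [hk])
  set γ := a - ∑ i, gram (q i - p i) (r i - p i) / 2 with hγ
  have hγ0 : 0 ≤ γ := by linarith
  let u' : (Fin N ⊕ Fin N) ⊕ (Unit ⊕ Fin k) → E3 := Sum.elim u fun _ => !₂[1, 0, 0]
  let p' : (Fin N ⊕ Fin N) ⊕ (Unit ⊕ Fin k) → E3 := Sum.elim p fun _ => 0
  let q' : (Fin N ⊕ Fin N) ⊕ (Unit ⊕ Fin k) → E3 := Sum.elim q fun _ => !₂[0, 1, 0]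
  let r' : (Fin N ⊕ Fin N) ⊕ (Unit ⊕ Fin k) → E3 :=
    Sum.elim r (Sum.elim (fun _ => !₂[0, 0, 2 * γ]) fun _ => 0)
  refine ⟨u' ∘ e, p' ∘ e, q' ∘ e, r' ∘ e, fun i => ?_, fun i => ?_, ?_, ?_⟩
  · simp only [Function.comp]
    rcases e i with j | j
    · exact h1 j
    · have := std_frame.hE
      exact (pow_eq_one_iff_of_nonneg (norm_nonneg _) two_ne_zero).1 this
  · simp only [Function.comp]
    rcases e i with j | j | j
    · exact h2 j
    · simp [u', p', q', r', inner3]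
    · simp [u', p', q', r', inner3]
  · intro z hz
    rw [std_eq] at hz
    obtain ⟨i, hi⟩ := h3 z hz
    refine mem_iUnion.2 ⟨e.symm (Sum.inl i), ?_⟩
    simp only [Function.comp, Equiv.apply_symm_apply]
    exact hi
  · simp only [measure_triangle_toReal, Function.comp]
    rw [e.sum_comp (fun j => gram (q' j - p' j) (r' j - p' j) / 2), Fintype.sum_sum_type,
      Fintype.sum_sum_type (α₁ := Unit)]
    have g1 : gram (!₂[0, 1, 0] : E3) !₂[0, 0, 2 * γ] = 2 * γ := by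
      rw [gram, normsq3, normsq3, inner3]
      simpa using Real.sqrt_sq (by positivity : 0 ≤ 2 * γ)
    have g2 : gram (!₂[0, 1, 0] : E3) 0 = 0 := by simp [gram]
    simp only [p', q', r', Sum.elim_inl, Sum.elim_inr, sub_zero, g1, g2]
    simp [hγ]

theorem std_min_proj (v : E3) (hv : ‖v‖ = 1) :
    ENNReal.ofReal √2 ≤ μHE[2] (prj v '' convexHull ℝ
      ({!₂[1, 0, 0], !₂[-1, 0, 0], !₂[0, 1, √2], !₂[0, -1, √2]} : Set E3)) := by
  rw [std_eq]
  simpa only [mul_one] using min_proj 0 _ _ _ 1 std_frame v hv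

theorem std_min_proj_toReal (v : E3) (hv : ‖v‖ = 1) :
    √2 ≤ (μHE[2] (prj v '' convexHull ℝ
      ({!₂[1, 0, 0], !₂[-1, 0, 0], !₂[0, 1, √2], !₂[0, -1, √2]} : Set E3))).toReal := by
  rw [std_eq]
  simpa only [mul_one] using min_proj_toReal 0 _ _ _ 1 std_frame v hv

theorem std_proj_eq : μHE[2] (prj !₂[1, 0, 0] '' convexHull ℝ
      ({!₂[1, 0, 0], !₂[-1, 0, 0], !₂[0, 1, √2], !₂[0, -1, √2]} : Set E3)) =
      ENNReal.ofReal √2 := by
  have h := (prjL !₂[1, 0, 0]).image_convexHull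
    ({!₂[1, 0, 0], !₂[-1, 0, 0], !₂[0, 1, √2], !₂[0, -1, √2]} : Set E3)
  have n1 : ‖(!₂[1, 0, 0] : E3)‖ ^ 2 = 1 := std_frame.hE
  have e1 : prjL !₂[1, 0, 0] !₂[1, 0, 0] = 0 := by
    ext i; fin_cases i <;> simp [prjL_apply, prj, n1]
  have e2 : prjL !₂[1, 0, 0] !₂[-1, 0, 0] = 0 := by
    ext i; fin_cases i <;> simp [prjL_apply, prj, n1, inner3]
  have e3 : prjL !₂[1, 0, 0] !₂[0, 1, √2] = !₂[0, 1, √2] := by
    ext i; fin_cases i <;> simp [prjL_apply, prj, inner3]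
  have e4 : prjL !₂[1, 0, 0] !₂[0, -1, √2] = !₂[0, -1, √2] := by
    ext i; fin_cases i <;> simp [prjL_apply, prj, inner3]
  rw [image_insert_eq, image_insert_eq, image_insert_eq, image_singleton, e1, e2, e3, e4,
    insert_idem] at h
  change μHE[2] (prjL !₂[1, 0, 0] '' _) = _
  rw [h, measure_triangle, gram, normsq3, normsq3, inner3]
  congr 1
  rw [div_eq_iff two_ne_zero, ← Real.sqrt_sq (by positivity : 0 ≤ √2 * 2)]
  congr 1
  have : √2 ^ 2 = 2 := Real.sq_sqrt (by norm_num)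
  simp
  nlinarith

end Crest.Agent.R211
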