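import Mathlib
import Crest.Agent.R211.Tet

/-! Parallelogram covers and general regular tetrahedra. -/

set_option autoImplicit false

open MeasureTheory Set Filter
open scoped ENNReal Topology

namespace Crest.Agent.R211

theorem exists_frame_of_regular (w : Fin 4 → E3) (ℓ : ℝ) (hℓ : 0 < ℓ)
    (hw : ∀ i j, i ≠ j → dist (w i) (w j) = ℓ) :
    ∃ (o E B A : E3) (m : ℝ), Frame E B A m ∧
      range w = ({o + E, o - E, o + A + B, o + A - B} : Set E3) := by
  have d : ∀ i j, i ≠ j → (w i 0 - w j 0) ^ 2 + (w i 1 - w j 1) ^ 2 + (w i 2 - w j 2) ^ 2 = ℓ ^ 2 :=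
    fun i j hij => by
      rw [← hw i j hij, dist_eq_norm, normsq3]; simp
  have d01 := d 0 1 (by decide)
  have d02 := d 0 2 (by decide)
  have d03 := d 0 3 (by decide)
  have d12 := d 1 2 (by decide)
  have d13 := d 1 3 (by decide)
  have d23 := d 2 3 (by decide)
  refine ⟨(1 / 2 : ℝ) • (w 0 + w 1), (1 / 2 : ℝ) • (w 0 - w 1), (1 / 2 : ℝ) • (w 2 - w 3),
    (1 / 2 : ℝ) • (w 2 + w 3 - w 0 - w 1), ℓ ^ 2 / 4, ⟨by positivity, ?_, ?_, ?_, ?_, ?_, ?_⟩, ?_⟩
  · rw [normsq3]; simp only [PiLp.smul_apply, PiLp.sub_apply, smul_eq_mul]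
    linear_combination (1 / 4) * d01
  · rw [normsq3]; simp only [PiLp.smul_apply, PiLp.sub_apply, smul_eq_mul]
    linear_combination (1 / 4) * d23
  · rw [normsq3]; simp only [PiLp.smul_apply, PiLp.sub_apply, PiLp.add_apply, smul_eq_mul]
    linear_combination (1 / 4) * (d02 + d03 + d12 + d13 - d01 - d23)
  · rw [inner3]; simp only [PiLp.smul_apply, PiLp.sub_apply, smul_eq_mul]
    linear_combination (1 / 8) * (d03 + d12 - d02 - d13)
  · rw [inner3]; simp only [PiLp.smul_apply, PiLp.sub_apply, PiLp.add_apply, smul_eq_mul]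
    linear_combination (1 / 8) * (d12 + d13 - d02 - d03)
  · rw [inner3]; simp only [PiLp.smul_apply, PiLp.sub_apply, PiLp.add_apply, smul_eq_mul]
    linear_combination (1 / 8) * (d02 + d12 - d03 - d13)
  · have e0 : (1 / 2 : ℝ) • (w 0 + w 1) + (1 / 2 : ℝ) • (w 0 - w 1) = w 0 := by module
    have e1 : (1 / 2 : ℝ) • (w 0 + w 1) - (1 / 2 : ℝ) • (w 0 - w 1) = w 1 := by module
    have e2 : (1 / 2 : ℝ) • (w 0 + w 1) + (1 / 2 : ℝ) • (w 2 + w 3 - w 0 - w 1) +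
      (1 / 2 : ℝ) • (w 2 - w 3) = w 2 := by module
    have e3 : (1 / 2 : ℝ) • (w 0 + w 1) + (1 / 2 : ℝ) • (w 2 + w 3 - w 0 - w 1) -
      (1 / 2 : ℝ) • (w 2 - w 3) = w 3 := by module
    rw [e0, e1, e2, e3]
    ext x
    simp only [mem_range, mem_insert_iff, mem_singleton_iff]
    constructor
    · rintro ⟨i, rfl⟩; fin_cases i <;> simp
    · rintro (rfl | rfl | rfl | rfl) <;> exact ⟨_, rfl⟩

theorem sum_strip (n : ℕ) (hn : 0 < n) :
    ∑ j : Fin n, (1 - (j : ℝ) / n) * (1 / n) = (1 + 1 / n) / 2 := by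
  have hn' : (n : ℝ) ≠ 0 := by positivity
  have h : ∀ k : ℕ, ∑ j ∈ Finset.range k, (1 - (j : ℝ) / n) * (1 / n) =
      k / n - k * (k - 1) / (2 * n ^ 2) := by
    intro k
    induction k with
    | zero => simp
    | succ k ih => rw [Finset.sum_range_succ, ih]; push_cast; field_simp; ring
  rw [Fin.sum_univ_eq_sum_range (fun j => (1 - (j : ℝ) / n) * (1 / n)) n, h]
  field_simp; ring

theorem strip_mem (n : ℕ) (hn : 0 < n) (y : ℝ × ℝ) (hy : y ∈ simplex) :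
    ∃ j : Fin n, ∃ s ∈ Icc (0 : ℝ) 1, ∃ t ∈ Icc (0 : ℝ) 1,
      y.1 = s * (1 - (j : ℝ) / n) ∧ y.2 = (j : ℝ) / n + t * (1 / n) := by
  have hn' : (0 : ℝ) < n := by positivity
  obtain ⟨h1, h2, h3⟩ := hy
  obtain ⟨j, hj1, hj2⟩ := exists_piece (N := n) (fun j => ((j : ℕ) : ℝ) / n) y.2 (by simpa)
    (by simp only [Fin.val_last]; rw [div_self hn'.ne']; linarith)
    (by simp only [Fin.val_last]; rw [div_self hn'.ne']; simp)
  simp only [Fin.val_castSucc, Fin.val_succ, Nat.cast_add, Nat.cast_one] at hj1 hj2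
  have hj : (j : ℝ) / n < 1 := by
    rw [div_lt_one hn']; exact_mod_cast j.2
  refine ⟨j, y.1 / (1 - (j : ℝ) / n), ⟨div_nonneg h1 (by linarith), ?_⟩, (y.2 - j / n) * n,
    ⟨mul_nonneg (by linarith) hn'.le, ?_⟩, ?_, ?_⟩
  · rw [div_le_one (by linarith)]; linarith
  · rw [le_div_iff₀ hn'] at hj2
    rw [sub_mul, div_mul_cancel₀ _ hn'.ne']; linarith
  · rw [div_mul_cancel₀ _ (by linarith)]
  · field_simp; ring

theorem tet_par_cover (o E B A : E3) (m : ℝ) (F : Frame E B A m) :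
    ∃ (ι : Type) (_ : Fintype ι) (u c a b : ι → E3), (∀ i, ‖u i‖ = 1) ∧
      (∀ i, inner ℝ (c i) (u i) = 0 ∧ inner ℝ (a i) (u i) = 0 ∧ inner ℝ (b i) (u i) = 0) ∧
      (∀ z ∈ convexHull ℝ ({o + E, o - E, o + A + B, o + A - B} : Set E3),
        ∃ i, ∃ s ∈ Icc (0 : ℝ) 1, ∃ t ∈ Icc (0 : ℝ) 1, ∃ τ : ℝ,
          z = c i + s • a i + t • b i + τ • u i) ∧
      ∑ i, gram (a i) (b i) < √2 * m / 2 := by
  obtain ⟨N, hN⟩ : ∃ N : ℕ, N = 4000000 := ⟨_, rfl⟩
  obtain ⟨n, hn⟩ : ∃ n : ℕ, n = 100000000 := ⟨_, rfl⟩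
  have hn0 : 0 < n := by omega
  have hn' : (n : ℝ) = 100000000 := by rw [hn]; norm_num
  obtain ⟨u, p, q, r, h1, h2, h3, h4⟩ := tet_cover o E B A m F N (by rw [hN]; norm_num)
  refine ⟨(Fin N ⊕ Fin N) × Fin n, inferInstance, fun i => u i.1,
    fun i => p i.1 + ((i.2 : ℝ) / n) • (r i.1 - p i.1),
    fun i => (1 - (i.2 : ℝ) / n) • (q i.1 - p i.1), fun i => (1 / n : ℝ) • (r i.1 - p i.1),
    fun i => h1 _, fun i => ?_, fun z hz => ?_, ?_⟩
  · obtain ⟨k1, k2, k3⟩ := h2 i.1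
    simp [inner_add_left, inner_smul_left, inner_sub_left, k1, k2, k3]
  · obtain ⟨i, b, hb, σ, rfl⟩ := h3 z hz
    rw [hull_eq] at hb
    obtain ⟨y, hy, rfl⟩ := hb
    obtain ⟨j, s, hs, t, ht, e1, e2⟩ := strip_mem n hn0 y hy
    refine ⟨(i, j), s, hs, t, ht, σ, ?_⟩
    simp only [aff, e1, e2]
    module
  · rw [Fintype.sum_prod_type]
    have : ∀ i, ∑ j : Fin n, gram ((1 - (j : ℝ) / n) • (q i - p i)) ((1 / n : ℝ) • (r i - p i)) =
        (1 + 1 / n) * (gram (q i - p i) (r i - p i) / 2) := fun i => by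
      have e : ∀ j : Fin n, gram ((1 - (j : ℝ) / n) • (q i - p i)) ((1 / n : ℝ) • (r i - p i)) =
          (1 - (j : ℝ) / n) * (1 / n) * gram (q i - p i) (r i - p i) := fun j => by
        have hj : (j : ℝ) / n < 1 := by
          rw [div_lt_one (by positivity)]; exact_mod_cast j.2
        rw [gram_smul, abs_of_pos (by linarith), abs_of_pos (by positivity)]
      simp only [e]
      rw [← Finset.sum_mul, sum_strip n hn0]; ring
    simp only [this]
    rw [← Finset.mul_sum, hn']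
    have hs : 0 < √2 * m := by have := F.pos; positivity
    linarith

end Crest.Agent.R211
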