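import Mathlib
import Crest.Agent.R211.Grid

/-! Covering ruled sets by sheared cylinders over squares. -/

set_option autoImplicit false

open MeasureTheory Set Filter
open scoped ENNReal Topology

namespace Crest.Agent.R211

/-- The cost density of a velocity. -/
noncomputable def Jc (h : ℝ) (g : E2) : ℝ := 1 / √(1 + g 0 ^ 2 + h ^ 2 * g 1 ^ 2)

theorem one_le_sqrtJ (h : ℝ) (g : E2) : 1 ≤ √(1 + g 0 ^ 2 + h ^ 2 * g 1 ^ 2) :=
  Real.one_le_sqrt.2 (by nlinarith [sq_nonneg (g 0), mul_nonneg (sq_nonneg h) (sq_nonneg (g 1))])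

theorem Jc_pos (h : ℝ) (g : E2) : 0 < Jc h g := by
  have := one_le_sqrtJ h g
  unfold Jc; positivity

theorem Jc_le_one (h : ℝ) (g : E2) : Jc h g ≤ 1 := by
  have := one_le_sqrtJ h g
  unfold Jc
  rw [div_le_one (by linarith)]; exact this

theorem continuous_Jc (h : ℝ) : Continuous (Jc h) := by
  unfold Jc
  refine continuous_const.div (by fun_prop) fun g => ?_
  have := one_le_sqrtJ h g
  linarith

/-- The ruled set over `P` has a cover by square cylinders of cost at most `x`. -/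
def Cov (V : E2 → E2) (L h : ℝ) (P : Set E2) (x : ℝ) : Prop :=
  ∃ (ι : Type) (_ : Fintype ι) (c a b g : ι → E2),
    (∀ i, a i ≠ 0 ∧ ‖b i‖ = ‖a i‖ ∧ inner ℝ (a i) (b i) = 0) ∧
    (∀ p ∈ P, ∀ s : ℝ, |s| ≤ L → ∃ i, ∃ x ∈ Icc (0 : ℝ) 1, ∃ y ∈ Icc (0 : ℝ) 1,
      p + s • V p = c i + x • a i + y • b i + s • g i) ∧
    ∑ i, ‖a i‖ ^ 2 * Jc h (g i) ≤ x

theorem Cov.sum {V : E2 → E2} {L h : ℝ} {κ : Type} (S : Finset κ) (P : κ → Set E2) (x : κ → ℝ)
    (H : ∀ k ∈ S, Cov V L h (P k) (x k)) (D : Set E2) (hD : ∀ p ∈ D, ∃ k ∈ S, p ∈ P k) :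
    Cov V L h D (∑ k ∈ S, x k) := by
  choose ι fin c a b g h1 h2 h3 using fun k : S => H k.1 k.2
  refine ⟨Σ k : S, ι k, inferInstance, fun i => c i.1 i.2, fun i => a i.1 i.2, fun i => b i.1 i.2,
    fun i => g i.1 i.2, fun i => h1 i.1 i.2, fun p hp s hs => ?_, ?_⟩
  · obtain ⟨k, hk, hpk⟩ := hD p hp
    obtain ⟨i, hi⟩ := h2 ⟨k, hk⟩ p hpk s hs
    exact ⟨⟨⟨k, hk⟩, i⟩, hi⟩
  · rw [Fintype.sum_sigma, ← Finset.sum_coe_sort S x]
    exact Finset.sum_le_sum fun k _ => h3 k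

theorem Cov.mono {V : E2 → E2} {L h : ℝ} {P : Set E2} {x y : ℝ} (H : Cov V L h P x) (hxy : x ≤ y) :
    Cov V L h P y := by
  obtain ⟨ι, fin, c, a, b, g, h1, h2, h3⟩ := H
  exact ⟨ι, fin, c, a, b, g, h1, h2, h3.trans hxy⟩

theorem clm_apply2 (A : E2 →L[ℝ] E2) (x : E2) :
    A x = x 0 • A (EuclideanSpace.single 0 1) + x 1 • A (EuclideanSpace.single 1 1) := by
  rw [← map_smul, ← map_smul, ← map_add]
  congr 1
  ext i
  fin_cases i <;> simp

theorem trace2 (A : E2 →L[ℝ] E2) : LinearMap.trace ℝ _ A.toLinearMap =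
    A (EuclideanSpace.single 0 1) 0 + A (EuclideanSpace.single 1 1) 1 := by
  rw [LinearMap.trace_eq_matrix_trace ℝ (EuclideanSpace.basisFun (Fin 2) ℝ).toBasis,
    Matrix.trace_fin_two]
  simp [LinearMap.toMatrix_apply]

theorem det2 (A : E2 →L[ℝ] E2) : LinearMap.det A.toLinearMap =
    A (EuclideanSpace.single 0 1) 0 * A (EuclideanSpace.single 1 1) 1 -
      A (EuclideanSpace.single 1 1) 0 * A (EuclideanSpace.single 0 1) 1 := by
  rw [← LinearMap.det_toMatrix (EuclideanSpace.basisFun (Fin 2) ℝ).toBasis, Matrix.det_fin_two]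
  simp [LinearMap.toMatrix_apply]

theorem exists_frame (A : E2 →L[ℝ] E2) (htr : LinearMap.trace ℝ _ A.toLinearMap = 0) :
    ∃ u v μ ν : ℝ, u ^ 2 + v ^ 2 = 1 ∧ μ * ν = -LinearMap.det A.toLinearMap ∧
      ∀ x : E2, u * A x 0 + v * A x 1 = ν * (-v * x 0 + u * x 1) ∧
        -v * A x 0 + u * A x 1 = μ * (u * x 0 + v * x 1) := by
  rw [trace2] at htr
  rw [det2]
  set α := A (EuclideanSpace.single 0 1) 0 with hα
  set γ := A (EuclideanSpace.single 0 1) 1 with hγ
  set β := A (EuclideanSpace.single 1 1) 0 with hβ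
  have hδ : A (EuclideanSpace.single 1 1) 1 = -α := by linarith
  obtain ⟨u, v, huv, hz⟩ := exists_zero_diag α (β + γ)
  refine ⟨u, v, γ * u ^ 2 - β * v ^ 2 - 2 * α * u * v, β * u ^ 2 - γ * v ^ 2 - 2 * α * u * v,
    huv, ?_, fun x => ?_⟩
  · rw [hδ]
    linear_combination (α ^ 2 + β * γ) * (u ^ 2 + v ^ 2 + 1) * huv -
      (α * (u ^ 2 - v ^ 2) + (β + γ) * (u * v)) * hz
  · have e0 : A x 0 = x 0 * α + x 1 * β := by rw [clm_apply2]; simp [hα, hβ]
    have e1 : A x 1 = x 0 * γ - x 1 * α := by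
      rw [clm_apply2]; simp [hγ, hδ]; ring
    rw [e0, e1]
    constructor
    · linear_combination (u * x 0 + v * x 1) * hz -
        (u * (x 0 * α + x 1 * β) + v * (x 0 * γ - x 1 * α)) * huv
    · linear_combination (-(-v * x 0 + u * x 1)) * hz -
        (-v * (x 0 * α + x 1 * β) + u * (x 0 * γ - x 1 * α)) * huv

theorem eq_of_rot {u v : ℝ} (huv : u ^ 2 + v ^ 2 = 1) (x y : E2)
    (h0 : u * x 0 + v * x 1 = u * y 0 + v * y 1) (h1 : -v * x 0 + u * x 1 = -v * y 0 + u * y 1) :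
    x = y := by
  ext i
  fin_cases i
  · show x 0 = y 0
    linear_combination u * h0 - v * h1 - (x 0 - y 0) * huv
  · show x 1 = y 1
    linear_combination v * h0 + u * h1 - (x 1 - y 1) * huv

theorem rot_le {u v : ℝ} (huv : u ^ 2 + v ^ 2 = 1) (x : E2) : |u * x 0 + v * x 1| ≤ ‖x‖ := by
  rw [← abs_norm, ← sq_le_sq, normsq2]
  nlinarith [sq_nonneg (u * x 1 - v * x 0)]

theorem solve_bound {s μ ν L κ a1 a2 b1 b2 ε : ℝ} (hs : |s| ≤ L) (h0 : 0 ≤ μ * ν)
    (hκ : L ^ 2 * (μ * ν) = κ) (hκ1 : κ < 1) (e1 : a1 + s * ν * a2 = b1)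
    (e2 : a2 + s * μ * a1 = b2) (hb1 : |b1| ≤ ε) (hb2 : |b2| ≤ ε) :
    |a1| ≤ (1 + L * (|μ| + |ν|)) / (1 - κ) * ε := by
  have hs2 : s ^ 2 ≤ L ^ 2 := by rw [← sq_abs s]; gcongr
  have hL : 0 ≤ L := (abs_nonneg s).trans hs
  have hε : 0 ≤ ε := (abs_nonneg _).trans hb1
  have h1 : s ^ 2 * (μ * ν) ≤ κ := by rw [← hκ]; gcongr
  have h2 : (1 - s ^ 2 * (μ * ν)) * a1 = b1 - s * ν * b2 := by
    linear_combination e1 - s * ν * e2
  have h3 : |b1 - s * ν * b2| ≤ (1 + L * (|μ| + |ν|)) * ε := by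
    refine (abs_sub _ _).trans ?_
    rw [abs_mul, abs_mul]
    have : |s| * |ν| * |b2| ≤ L * |ν| * ε := by gcongr
    nlinarith [mul_nonneg (mul_nonneg hL (abs_nonneg μ)) hε]
  rw [← h2, abs_mul, abs_of_pos (by linarith)] at h3
  rw [div_mul_eq_mul_div, le_div_iff₀ (by linarith)]
  nlinarith [abs_nonneg a1]

theorem coord_bound {u v x y K : ℝ} (huv : u ^ 2 + v ^ 2 = 1) (z1 : |u * x + v * y| ≤ K)
    (z2 : |-v * x + u * y| ≤ K) : |x| ≤ 2 * K ∧ |y| ≤ 2 * K := by
  have hu1 : |u| ≤ 1 := by rw [← sq_le_one_iff_abs_le_one]; nlinarith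
  have hv1 : |v| ≤ 1 := by rw [← sq_le_one_iff_abs_le_one]; nlinarith
  constructor
  · have : x = u * (u * x + v * y) - v * (-v * x + u * y) := by linear_combination (-x) * huv
    rw [this]
    refine (abs_sub _ _).trans ?_
    rw [abs_mul, abs_mul]
    have := mul_le_mul hu1 z1 (abs_nonneg _) zero_le_one
    have := mul_le_mul hv1 z2 (abs_nonneg _) zero_le_one
    linarith
  · have : y = v * (u * x + v * y) + u * (-v * x + u * y) := by linear_combination (-y) * huv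
    rw [this]
    refine (abs_add_le _ _).trans ?_
    rw [abs_mul, abs_mul]
    have := mul_le_mul hv1 z1 (abs_nonneg _) zero_le_one
    have := mul_le_mul hu1 z2 (abs_nonneg _) zero_le_one
    linarith

theorem err_bound {s L η' τ' ρ e θ : ℝ} (hs : |s| ≤ L) (hρ : 0 < ρ) (hτ' : 0 < τ')
    (he : |e| ≤ η' * (2 * ρ)) (hθ : θ ∈ Icc (0 : ℝ) 1) :
    |s * e - θ * (τ' * ρ)| ≤ (2 * L * η' + τ') * ρ := by
  have hr' : 0 < τ' * ρ := by positivity
  have hL : 0 ≤ L := (abs_nonneg s).trans hs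
  refine (abs_sub _ _).trans ?_
  rw [abs_mul, abs_mul, abs_of_nonneg hθ.1, abs_of_pos hr']
  have k1 : |s| * |e| ≤ L * (η' * (2 * ρ)) := by gcongr
  have k2 : θ * (τ' * ρ) ≤ 1 * (τ' * ρ) := by gcongr; exact hθ.2
  linarith

theorem local_cov (V : E2 → E2) (L h : ℝ) (hL : 0 < L) (p : E2) (A : E2 →L[ℝ] E2)
    (hA : HasStrictFDerivAt V A p) (htr : LinearMap.trace ℝ _ A.toLinearMap = 0)
    (hd1 : -(L ^ 2)⁻¹ < LinearMap.det A.toLinearMap) (hd2 : LinearMap.det A.toLinearMap ≤ 0)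
    (η : ℝ) (hη : 0 < η) (hη1 : η ≤ 1) :
    ∃ r0 : ℝ, 0 < r0 ∧ (∀ x ∈ Metric.ball p r0, |Jc h (V x) - Jc h (V p)| ≤ η) ∧
      ∀ (q : E2) (ρ : ℝ) (P : Set E2), 0 < ρ → ρ ≤ 2 * r0 → q ∈ Metric.ball p r0 →
        P ⊆ Metric.ball p r0 → P ⊆ box q 0 ρ →
        Cov V L h P ((Jc h (V p) + η) * (ρ * (1 + η)) ^ 2) := by
  classical
  obtain ⟨u, v, μ, ν, huv, hμν, hrot⟩ := exists_frame A htr
  have h0 : 0 ≤ μ * ν := by linarith
  have hκ1 : L ^ 2 * (μ * ν) < 1 := by
    have : μ * ν < (L ^ 2)⁻¹ := by linarith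
    calc L ^ 2 * (μ * ν) < L ^ 2 * (L ^ 2)⁻¹ := by gcongr
      _ = 1 := mul_inv_cancel₀ (by positivity)
  set C := (1 + L * (|μ| + |ν|)) / (1 - L ^ 2 * (μ * ν)) with hC
  have hC0 : 0 < C := div_pos (by positivity) (by linarith)
  set η' := η / (16 * (C * L + 1)) with hη'
  set τ' := η / (8 * (C + 1)) with hτ'
  have hη'0 : 0 < η' := by positivity
  have hτ'0 : 0 < τ' := by positivity
  have hsmall : 2 * (C * (2 * L * η' + τ') + τ') ≤ η / 2 := by
    have e1 : η' * (16 * (C * L + 1)) = η := by rw [hη']; field_simp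
    have e2 : τ' * (8 * (C + 1)) = η := by rw [hτ']; field_simp
    nlinarith
  clear_value η' τ'
  obtain ⟨δJ, hδJ, hJ⟩ := Metric.continuousAt_iff.1 ((continuous_Jc h).continuousAt (x := V p)) η hη
  obtain ⟨r1, hr1, hV1⟩ := Metric.continuousAt_iff.1 hA.continuousAt (δJ / 2) (by positivity)
  obtain ⟨r2, hr2, hV2⟩ := Metric.eventually_nhds_iff.1
    (Asymptotics.isLittleO_iff.1 hA.isLittleO hη'0)
  set r0 := min (min r1 r2) (δJ / (16 * (‖A‖ + 1))) with hr0
  have hr01 : r0 ≤ r1 := (min_le_left _ _).trans (min_le_left _ _)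
  have hr02 : r0 ≤ r2 := (min_le_left _ _).trans (min_le_right _ _)
  have hr03 : r0 * (16 * (‖A‖ + 1)) ≤ δJ := by
    rw [← le_div_iff₀ (by positivity)]; exact min_le_right _ _
  have hr00 : 0 < r0 := lt_min (lt_min hr1 hr2) (by positivity)
  clear_value r0
  refine ⟨r0, hr00, fun x hx => ?_, fun q ρ P hρ hρr hq hP hPb => ?_⟩
  · exact (hJ ((hV1 (lt_of_lt_of_le hx hr01)).trans (by linarith))).le
  set r := τ' * ρ with hr
  have hr' : 0 < r := by positivity
  clear_value r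
  set B := box q (η / 2 * ρ) (ρ + η / 2 * ρ) with hB
  set S := (finite_idx q (u := u) (v := v) hr' B (isBounded_box _ _ _)).toFinset.filter
    (fun m => cell q u v r m ⊆ B) with hS
  set cn : ℤ × ℤ → E2 := fun m =>
    q + (m.1 : ℝ) • (!₂[r * u, r * v] : E2) + (m.2 : ℝ) • (!₂[-(r * v), r * u] : E2) with hcn
  have hcn0 : ∀ m, u * (cn m 0 - q 0) + v * (cn m 1 - q 1) = m.1 * r := fun m => by
    simp [hcn]; linear_combination (m.1 * r) * huv
  have hcn1 : ∀ m, -v * (cn m 0 - q 0) + u * (cn m 1 - q 1) = m.2 * r := fun m => by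
    simp [hcn]; linear_combination (m.2 * r) * huv
  have hcnm : ∀ m, cn m ∈ cell q u v r m := fun m => by
    rw [mem_cell hr', hcn0, hcn1]
    exact ⟨⟨le_rfl, by linarith⟩, le_rfl, by linarith⟩
  have hna : ‖(!₂[r * u, r * v] : E2)‖ ^ 2 = r ^ 2 := by
    rw [normsq2]; simp; linear_combination r ^ 2 * huv
  have hnb : ‖(!₂[-(r * v), r * u] : E2)‖ ^ 2 = r ^ 2 := by
    rw [normsq2]; simp; linear_combination r ^ 2 * huv
  refine ⟨S, inferInstance, fun m => cn m.1, fun _ => !₂[r * u, r * v], fun _ => !₂[-(r * v), r * u],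
    fun m => V q + A (cn m.1 - q), fun _ => ⟨?_, ?_, ?_⟩, fun x hx s hs => ?_, ?_⟩
  · intro h0
    simp only at h0
    rw [h0, norm_zero] at hna
    exact absurd hna (by simpa using (pow_pos hr' 2).ne)
  · exact (sq_eq_sq₀ (norm_nonneg _) (norm_nonneg _)).1 (hnb.trans hna.symm)
  · rw [inner2]; simp; ring
  · set err := V x - V q - A (x - q) with herr
    obtain ⟨⟨hx1, hx2⟩, hx3, hx4⟩ := mem_box.1 (hPb hx)
    have hd : ‖x - q‖ ≤ 2 * ρ := by
      refine (norm_le2 _).trans ?_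
      simp only [PiLp.sub_apply]
      rw [abs_of_nonneg (by linarith), abs_of_nonneg (by linarith)]; linarith
    have he : ‖err‖ ≤ η' * (2 * ρ) := by
      have := hV2 (y := (x, q)) (by
        rw [Prod.dist_eq]
        exact max_lt (lt_of_lt_of_le (hP hx) hr02) (lt_of_lt_of_le hq hr02))
      exact this.trans (by gcongr)
    set dX := u * (x 0 - q 0) + v * (x 1 - q 1) with hdX
    set dY := -v * (x 0 - q 0) + u * (x 1 - q 1) with hdY
    set eX := u * err 0 + v * err 1 with heX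
    set eY := -v * err 0 + u * err 1 with heY
    have heX' : |eX| ≤ η' * (2 * ρ) := (rot_le huv err).trans he
    have heY' : |eY| ≤ η' * (2 * ρ) := (rot_le (by linarith) err).trans he
    have hs2 : s ^ 2 ≤ L ^ 2 := by rw [← sq_abs s]; gcongr
    obtain ⟨m, n, hm, hn⟩ := lattice (s * μ) (s * ν) ((dX + s * ν * dY + s * eX) / r)
      ((dY + s * μ * dX + s * eY) / r) (by nlinarith [mul_nonneg (sq_nonneg s) h0])
      (by nlinarith [mul_le_mul_of_nonneg_right hs2 h0])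
    set θ1 := (dX + s * ν * dY + s * eX) / r - m - s * ν * n with hθ1
    set θ2 := (dY + s * μ * dX + s * eY) / r - s * μ * m - n with hθ2
    have f1 : θ1 * r = dX + s * ν * dY + s * eX - m * r - s * ν * n * r := by
      rw [hθ1]; field_simp
    have f2 : θ2 * r = dY + s * μ * dX + s * eY - s * μ * m * r - n * r := by
      rw [hθ2]; field_simp
    have hb : ∀ e θ : ℝ, |e| ≤ η' * (2 * ρ) → θ ∈ Icc (0 : ℝ) 1 →
        |s * e - θ * r| ≤ (2 * L * η' + τ') * ρ := fun e θ he hθ => by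
      rw [hr]; exact err_bound hs hρ hτ'0 he hθ
    clear_value θ1 θ2
    have ha1 : |m * r - dX| ≤ C * ((2 * L * η' + τ') * ρ) :=
      solve_bound (a2 := n * r - dY) hs h0 rfl hκ1 (by linear_combination f1)
        (by linear_combination f2) (hb eX θ1 heX' hm) (hb eY θ2 heY' hn)
    have ha2 : |n * r - dY| ≤ C * ((2 * L * η' + τ') * ρ) := by
      have := solve_bound (μ := ν) (ν := μ) (a1 := n * r - dY) (a2 := m * r - dX) hs
        (by linarith) (show L ^ 2 * (ν * μ) = L ^ 2 * (μ * ν) by ring) hκ1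
        (by linear_combination f2) (by linear_combination f1) (hb eY θ2 heY' hn) (hb eX θ1 heX' hm)
      rwa [add_comm |ν|] at this
    clear_value C
    have hsub : cell q u v r (m, n) ⊆ B := by
      intro y hy
      obtain ⟨⟨y1, y2⟩, y3, y4⟩ := (mem_cell hr').1 hy
      simp only at y1 y2 y3 y4
      obtain ⟨a1, a2⟩ := abs_le.1 ha1
      obtain ⟨a3, a4⟩ := abs_le.1 ha2
      set K := C * ((2 * L * η' + τ') * ρ) + r with hK
      have hK2 : 2 * K ≤ η / 2 * ρ := by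
        have := mul_le_mul_of_nonneg_right hsmall hρ.le
        rw [hK, hr]; linarith
      have hKr : K = C * ((2 * L * η' + τ') * ρ) + r := rfl
      clear_value K
      have z1 : |u * (y 0 - x 0) + v * (y 1 - x 1)| ≤ K := by
        rw [abs_le]; constructor <;> linarith
      have z2 : |-v * (y 0 - x 0) + u * (y 1 - x 1)| ≤ K := by
        rw [abs_le]; constructor <;> linarith
      obtain ⟨w0, w1⟩ := coord_bound huv z1 z2
      obtain ⟨w2, w3⟩ := abs_le.1 w0
      obtain ⟨w4, w5⟩ := abs_le.1 w1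
      exact mem_box.2 ⟨⟨by linarith, by linarith⟩, by linarith, by linarith⟩
    have hmem : (m, n) ∈ S := by
      rw [hS, Finset.mem_filter, Set.Finite.mem_toFinset]
      exact ⟨⟨cn (m, n), hsub (hcnm _), hcnm _⟩, hsub⟩
    refine ⟨⟨(m, n), hmem⟩, θ1, hm, θ2, hn, ?_⟩
    have hVx : V x = V q + A (x - q) + err := by rw [herr]; abel
    obtain ⟨g1, g2⟩ := hrot (x - q)
    obtain ⟨g3, g4⟩ := hrot (cn (m, n) - q)
    have c0 := hcn0 (m, n)
    have c1 := hcn1 (m, n)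
    simp only [PiLp.sub_apply] at g1 g2 g3 g4
    rw [c1] at g3
    rw [c0] at g4
    rw [hVx]
    refine eq_of_rot huv _ _ ?_ ?_
    · simp only [PiLp.add_apply, PiLp.smul_apply, smul_eq_mul, Matrix.cons_val_zero,
        Matrix.cons_val_one]
      linear_combination s * g1 - s * g3 - c0 - f1 - θ1 * r * huv
    · simp only [PiLp.add_apply, PiLp.smul_apply, smul_eq_mul, Matrix.cons_val_zero,
        Matrix.cons_val_one]
      linear_combination s * g2 - s * g4 - c1 - f2 - θ2 * r * huv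
  · have hJm : ∀ m : S, Jc h (V q + A (cn m.1 - q)) ≤ Jc h (V p) + η := by
      intro m
      have hm := (Finset.mem_filter.1 m.2).2 (hcnm m.1)
      obtain ⟨⟨k1, k2⟩, k3, k4⟩ := mem_box.1 hm
      have hηρ : η / 2 * ρ ≤ ρ := by nlinarith
      have hηρ0 : 0 ≤ η / 2 * ρ := by positivity
      have hn : ‖cn m.1 - q‖ ≤ 4 * ρ := by
        refine (norm_le2 _).trans ?_
        simp only [PiLp.sub_apply]
        have : |cn m.1 0 - q 0| ≤ 2 * ρ := by rw [abs_le]; constructor <;> linarith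
        have : |cn m.1 1 - q 1| ≤ 2 * ρ := by rw [abs_le]; constructor <;> linarith
        linarith
      have h1 : ‖A (cn m.1 - q)‖ ≤ δJ / 2 := by
        refine (A.le_opNorm _).trans ?_
        have : ‖A‖ * ‖cn m.1 - q‖ ≤ ‖A‖ * (8 * r0) := by gcongr; linarith
        nlinarith
      have h2 := hV1 (lt_of_lt_of_le hq hr01)
      have h3 : dist (V q + A (cn m.1 - q)) (V p) < δJ := by
        rw [dist_eq_norm] at h2 ⊢
        have : V q + A (cn m.1 - q) - V p = (V q - V p) + A (cn m.1 - q) := by abel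
        rw [this]
        linarith [norm_add_le (V q - V p) (A (cn m.1 - q))]
      have h4 := hJ h3
      rw [Real.dist_eq] at h4
      linarith [(abs_lt.1 h4).2]
    have hcount := count_cells q huv hr' S B
      (by rw [hB, volume_box]; finiteness) (fun m hm => (Finset.mem_filter.1 hm).2)
    have hvB : volume.real B = (ρ * (1 + η)) ^ 2 := by
      rw [measureReal_def, hB, volume_box, ENNReal.toReal_mul,
        ENNReal.toReal_ofReal (by positivity)]
      ring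
    calc ∑ m : S, ‖(!₂[r * u, r * v] : E2)‖ ^ 2 * Jc h (V q + A (cn m.1 - q))
        ≤ ∑ _m : S, r ^ 2 * (Jc h (V p) + η) := Finset.sum_le_sum fun m _ => by
          rw [hna]; exact mul_le_mul_of_nonneg_left (hJm m) (sq_nonneg r)
      _ = (Jc h (V p) + η) * (S.card * r ^ 2) := by simp; ring
      _ ≤ _ := by
          rw [← hvB]
          exact mul_le_mul_of_nonneg_left hcount (by linarith [Jc_pos h (V p)])

theorem global_cov (D : Set E2) (hD : IsCompact D) (V : E2 → E2) (U : Set E2)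
    (hU : IsOpen U) (hDU : D ⊆ U) (hV : ContDiffOn ℝ 1 V U) (L h : ℝ) (hL : 0 < L)
    (htr : ∀ p ∈ D, LinearMap.trace ℝ _ (fderiv ℝ V p).toLinearMap = 0)
    (hdet : ∀ p ∈ D, -(L ^ 2)⁻¹ < LinearMap.det (fderiv ℝ V p).toLinearMap ∧
      LinearMap.det (fderiv ℝ V p).toLinearMap ≤ 0)
    (ε : ℝ) (hε : 0 < ε) : Cov V L h D ((∫ p in D, Jc h (V p)) + ε) := by
  classical
  have hDm : MeasurableSet D := hD.measurableSet
  have hDfin : volume D ≠ ∞ := hD.measure_lt_top.ne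
  set vD := volume.real D with hvD
  have hvD0 : 0 ≤ vD := measureReal_nonneg
  obtain ⟨η, hη0, hη1, hηε⟩ : ∃ η : ℝ, 0 < η ∧ η ≤ 1 ∧ 8 * η * (vD + 1) ≤ ε / 2 := by
    refine ⟨min 1 (ε / (16 * (vD + 1))), lt_min one_pos (by positivity), min_le_left _ _, ?_⟩
    have : min 1 (ε / (16 * (vD + 1))) ≤ ε / (16 * (vD + 1)) := min_le_right _ _
    rw [le_div_iff₀ (by positivity)] at this
    linarith
  have hloc := fun p : D => local_cov V L h hL p (fderiv ℝ V p)
    ((hV.contDiffAt (hU.mem_nhds (hDU p.2))).hasStrictFDerivAt one_ne_zero) (htr p p.2)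
    (hdet p p.2).1 (hdet p p.2).2 η hη0 hη1
  choose r0 hr0 hJ hcov using hloc
  obtain ⟨δ, hδ, hleb⟩ := lebesgue_number_lemma_of_metric hD
    (c := fun p : D => Metric.ball (p : E2) (r0 p)) (fun _ => Metric.isOpen_ball)
    (fun x hx => mem_iUnion.2 ⟨⟨x, hx⟩, Metric.mem_ball_self (hr0 _)⟩)
  have hlim := (ENNReal.tendsto_toReal hDfin).comp
    (tendsto_measure_cthickening_of_isCompact (μ := volume) hD)
  obtain ⟨δ', hδ', hδ''⟩ := Metric.eventually_nhds_iff.1
    (hlim.eventually (gt_mem_nhds (lt_add_of_pos_right _ (lt_min one_pos (half_pos hε)))))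
  obtain ⟨ρ, hρ, hρδ, hρδ'⟩ : ∃ ρ : ℝ, 0 < ρ ∧ 2 * ρ < δ ∧ 2 * ρ < δ' :=
    ⟨min δ δ' / 4, by positivity, by linarith [min_le_left δ δ'], by linarith [min_le_right δ δ']⟩
  set N := Metric.cthickening (2 * ρ) D with hN
  have hNv : volume.real N < vD + min 1 (ε / 2) :=
    hδ'' (y := 2 * ρ) (by rw [Real.dist_eq, sub_zero, abs_of_pos (by linarith)]; exact hρδ')
  have hNfin : volume N ≠ ∞ := hD.isBounded.cthickening.measure_lt_top.ne
  set S := (finite_idx (0 : E2) (u := 1) (v := 0) hρ D hD.isBounded).toFinset with hS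
  have huv : (1 : ℝ) ^ 2 + 0 ^ 2 = 1 := by norm_num
  have hcell : ∀ m x, x ∈ cell (0 : E2) 1 0 ρ m ↔
      (m.1 * ρ ≤ x 0 ∧ x 0 < (m.1 + 1) * ρ) ∧ (m.2 * ρ ≤ x 1 ∧ x 1 < (m.2 + 1) * ρ) := by
    intro m x; rw [mem_cell hρ]; simp
  have hdiam : ∀ m, ∀ x ∈ cell (0 : E2) 1 0 ρ m, ∀ y ∈ cell (0 : E2) 1 0 ρ m,
      dist y x ≤ 2 * ρ := by
    intro m x hx y hy
    obtain ⟨⟨a1, a2⟩, a3, a4⟩ := (hcell m x).1 hx
    obtain ⟨⟨b1, b2⟩, b3, b4⟩ := (hcell m y).1 hy
    rw [dist_eq_norm]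
    refine (norm_le2 _).trans ?_
    simp only [PiLp.sub_apply]
    have : |y 0 - x 0| ≤ ρ := by rw [abs_le]; constructor <;> linarith
    have : |y 1 - x 1| ≤ ρ := by rw [abs_le]; constructor <;> linarith
    linarith
  have hJc : ContinuousOn (fun p => Jc h (V p)) D :=
    (continuous_Jc h).comp_continuousOn (hV.continuousOn.mono hDU)
  have hJi : IntegrableOn (fun p => Jc h (V p) + (η - 1)) D volume :=
    (hJc.add continuousOn_const).integrableOn_compact hD
  have hone : ∀ m ∈ S, Cov V L h (cell (0 : E2) 1 0 ρ m)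
      ((1 + 7 * η) * ρ ^ 2 + ∫ p in cell (0 : E2) 1 0 ρ m ∩ D, (Jc h (V p) + (η - 1))) := by
    intro m hm
    obtain ⟨x, hxD, hxm⟩ := (Set.Finite.mem_toFinset _).1 hm
    have hxc : x ∈ cell (0 : E2) 1 0 ρ m := hxm
    obtain ⟨p, hp⟩ := hleb x hxD
    have hsub : cell (0 : E2) 1 0 ρ m ⊆ Metric.ball (p : E2) (r0 p) := fun y hy =>
      hp (lt_of_le_of_lt (hdiam m x hxc y hy) hρδ)
    have hq : (!₂[m.1 * ρ, m.2 * ρ] : E2) ∈ cell (0 : E2) 1 0 ρ m := by
      rw [hcell]; simp [hρ]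
    have hρr : ρ ≤ 2 * r0 p := by
      have h1 : x ∈ Metric.ball (p : E2) (r0 p) := hp (Metric.mem_ball_self hδ)
      have h2 : x + EuclideanSpace.single 0 ρ ∈ Metric.ball (p : E2) (r0 p) := hp (by
        rw [Metric.mem_ball, dist_eq_norm]; simp [abs_of_pos hρ]; linarith)
      have h3 := dist_triangle_right (x + EuclideanSpace.single 0 ρ) x (p : E2)
      rw [Metric.mem_ball] at h1 h2
      have h4 : dist (x + EuclideanSpace.single 0 ρ) x = ρ := by
        rw [dist_eq_norm]; simp [abs_of_pos hρ]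
      linarith
    refine (hcov p _ ρ _ hρ hρr (hsub hq) hsub (fun y hy => ?_)).mono ?_
    · obtain ⟨⟨b1, b2⟩, b3, b4⟩ := (hcell m y).1 hy
      rw [mem_box]
      simp only [Matrix.cons_val_zero, Matrix.cons_val_one]
      exact ⟨⟨by linarith, by linarith⟩, by linarith, by linarith⟩
    · have hfin : volume (cell (0 : E2) 1 0 ρ m ∩ D) ≠ ∞ :=
        ne_top_of_le_ne_top hDfin (measure_mono inter_subset_right)
      have h1 : ∫ _y in cell (0 : E2) 1 0 ρ m ∩ D, (Jc h (V p) - 1) ≤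
          ∫ y in cell (0 : E2) 1 0 ρ m ∩ D, (Jc h (V y) + (η - 1)) := by
        refine setIntegral_mono_on (integrableOn_const hfin) (hJi.mono_set inter_subset_right)
          ((measurableSet_cell _ _ _ _ _).inter hDm) fun y hy => ?_
        linarith [(abs_le.1 (hJ p y (hsub hy.1))).1]
      rw [setIntegral_const, smul_eq_mul] at h1
      have h2 : volume.real (cell (0 : E2) 1 0 ρ m ∩ D) ≤ ρ ^ 2 := by
        have := measureReal_mono (μ := volume) (inter_subset_left (s := cell (0 : E2) 1 0 ρ m)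
          (t := D)) (by rw [volume_cell _ huv hρ]; exact ENNReal.ofReal_ne_top)
        rwa [measureReal_def (s := cell _ _ _ _ _), volume_cell _ huv hρ,
          ENNReal.toReal_ofReal (sq_nonneg ρ)] at this
      have h3 := Jc_le_one h (V p)
      have h4 := Jc_pos h (V p)
      refine le_trans ?_ (add_le_add_right h1 _)
      set J := Jc h (V p)
      set w := volume.real (cell (0 : E2) 1 0 ρ m ∩ D)
      have h5 : ρ ^ 2 * (J - 1) ≤ w * (J - 1) := mul_le_mul_of_nonpos_right h2 (by linarith)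
      have h6 : (J + η) * (1 + η) ^ 2 ≤ J + 7 * η := by
        have : (1 + η) ^ 2 ≤ 1 + 3 * η := by nlinarith
        have h7 : (J + η) * (1 + η) ^ 2 ≤ (J + η) * (1 + 3 * η) := by gcongr
        nlinarith
      have h7 := mul_le_mul_of_nonneg_left h6 (sq_nonneg ρ)
      rw [mul_pow]
      linarith
  refine (Cov.sum S _ _ hone D fun p hp => ⟨idx 0 1 0 ρ p,
    (Set.Finite.mem_toFinset _).2 ⟨p, hp, rfl⟩, rfl⟩).mono ?_
  rw [Finset.sum_add_distrib, ← integral_biUnion_finset S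
    (fun m _ => (measurableSet_cell _ _ _ _ _).inter hDm)
    (fun m hm n hn hmn => (cells_disjoint (0 : E2) 1 0 ρ S hm hn hmn).mono inter_subset_left
      inter_subset_left) (fun m _ => hJi.mono_set inter_subset_right)]
  have hU' : ⋃ m ∈ S, cell (0 : E2) 1 0 ρ m ∩ D = D := by
    apply Subset.antisymm (iUnion₂_subset fun _ _ => inter_subset_right)
    intro p hp
    exact mem_iUnion₂.2 ⟨idx 0 1 0 ρ p, (Set.Finite.mem_toFinset _).2 ⟨p, hp, rfl⟩, rfl, hp⟩
  rw [hU', integral_add (hJc.integrableOn_compact hD) (integrableOn_const hDfin),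
    setIntegral_const, smul_eq_mul, Finset.sum_const, nsmul_eq_mul]
  have hcount := count_cells (0 : E2) huv hρ S N hNfin (fun m hm y hy => by
    obtain ⟨x, hxD, hxm⟩ := (Set.Finite.mem_toFinset _).1 hm
    exact Metric.mem_cthickening_of_dist_le y x _ _ hxD (hdiam m x hxm y hy))
  have h1 : (S.card : ℝ) * ρ ^ 2 ≤ vD + 1 := by linarith [min_le_left 1 (ε / 2)]
  have h2 : (S.card : ℝ) * ρ ^ 2 ≤ vD + ε / 2 := by linarith [min_le_right 1 (ε / 2)]
  have h3 := mul_le_mul_of_nonneg_left h1 hη0.le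
  rw [← hvD]
  nlinarith

end Crest.Agent.R211
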